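import Vale.Agent.P088.R2.H381.QPh

/-!
# P088, boundary quasimodes: the theorem `quAlg`
-/

open MeasureTheory Set Filter Topology
open scoped ContDiff Matrix ComplexConjugate

noncomputable section

namespace Vale.Agent.P088.R2.H381

open Vale.Agent.P088.LR Vale.Agent.P088.LR.B Vale.Agent.P088.LR.H705

variable {n : ℕ}

theorem grad_ne {ρ : V n → ℝ} {p : V n} (hd : fderiv ℝ ρ p ≠ 0) : (fun j => pd j ρ p) ≠ 0 := by
  intro h
  refine hd (ContinuousLinearMap.coe_injective (LinearMap.pi_ext' fun i => ?_))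
  refine LinearMap.ext_ring ?_
  have := congrFun h i
  simpa [pd] using this

/-- a continuous function which is positive at `p` is positive on a ball -/
theorem pos_ball {f : V n → ℝ} (hf : Continuous f) {p : V n} (h : 0 < f p) :
    ∃ R > 0, ∀ x ∈ Metric.ball p R, 0 < f x :=
  Metric.eventually_nhds_iff_ball.1 (hf.continuousAt.eventually (lt_mem_nhds h))

/-- positive function, equal to `f` near `p` -/
theorem pos_ext {f : V n → ℝ} (hf : ContDiff ℝ ∞ f) (h0 : ∀ x, 0 ≤ f x) {p : V n} (h : 0 < f p) :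
    ∃ g : V n → ℝ, ContDiff ℝ ∞ g ∧ (∀ x, 0 < g x) ∧ ∃ R > 0, ∀ x ∈ Metric.ball p R, g x = f x := by
  obtain ⟨R, hR, hp⟩ := pos_ball hf.continuous h
  let η : ContDiffBump p := ⟨R / 2, R, by positivity, by linarith⟩
  refine ⟨fun x => f x + (1 - η x), hf.add (contDiff_const.sub η.contDiff), fun x => ?_,
    R / 2, by positivity, fun x hx => ?_⟩
  · have h1 : η x ≤ 1 := η.le_one
    by_cases hx : x ∈ Metric.ball p R
    · have := hp x hx
      show 0 < f x + (1 - η x)
      linarith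
    · have h2 : η x = 0 := by
        by_contra h3
        exact hx (η.support_eq ▸ (Function.mem_support.2 h3) : x ∈ Metric.ball p R)
      have := h0 x
      show 0 < f x + (1 - η x)
      rw [h2]
      linarith
  · show f x + (1 - η x) = f x
    rw [η.one_of_mem_closedBall (Metric.ball_subset_closedBall hx)]
    ring

/-- smooth function, equal to `1 / f` near `p` -/
theorem inv_ext {f : V n → ℂ} (hf : ContDiff ℝ ∞ f) {p : V n} (h : f p ≠ 0) :
    ∃ g : V n → ℂ, ContDiff ℝ ∞ g ∧ ∃ R > 0, ∀ x ∈ Metric.ball p R, g x * f x = 1 := by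
  have hre : ContDiff ℝ ∞ fun x => (f x).re := Complex.reCLM.contDiff.comp hf
  have him : ContDiff ℝ ∞ fun x => (f x).im := Complex.imCLM.contDiff.comp hf
  have h1 : ContDiff ℝ ∞ fun x => Complex.normSq (f x) := by
    simp only [Complex.normSq_apply]
    exact (hre.mul hre).add (him.mul him)
  obtain ⟨g, hg, hg0, R, hR, hgR⟩ := pos_ext h1 (fun x => Complex.normSq_nonneg _)
    (Complex.normSq_pos.2 h)
  refine ⟨fun x => conj (f x) * ((((g x)⁻¹ : ℝ)) : ℂ), ?_, R, hR, fun x hx => ?_⟩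
  · exact (Complex.conjCLE.contDiff.comp hf).mul
      (Complex.ofRealCLM.contDiff.comp (hg.inv fun x => (hg0 x).ne'))
  · have h2 := hgR x hx
    have h3 : (g x : ℂ) ≠ 0 := by exact_mod_cast (hg0 x).ne'
    have h4 : conj (f x) * f x = (g x : ℂ) := by
      rw [h2, Complex.normSq_eq_conj_mul_self]
    show conj (f x) * ((((g x)⁻¹ : ℝ)) : ℂ) * f x = 1
    rw [Complex.ofReal_inv]
    field_simp
    exact h4

/-- **The algebraic part of row B_QU.** -/
theorem quAlg : QUAlg := by
  intro n ρ hD s hs hpos p hp τ hτ hτp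
  have hρ := hD.sm
  have hsym : ∀ x, (s x).IsSymm := fun x => symm_of (hpos x)
  have hr : ContDiff ℝ ∞ (cx ρ) := cx_contDiff hρ
  have hdne : (fun j => pd j ρ p) ≠ 0 := grad_ne (hD.nz p hp)
  -- the coefficients
  set al : V n → ℝ := fun x => qf (s x) (fun j => pd j ρ x) (fun j => pd j ρ x) with hal
  set ga : V n → ℝ := fun x => qf (s x) τ (fun j => pd j ρ x) with hga
  set de : V n → ℝ := fun x => qf (s x) τ τ with hde
  have halc : ContDiff ℝ ∞ al := qf_contDiff hs (pdr_contDiff hρ) (pdr_contDiff hρ)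
  have hgac : ContDiff ℝ ∞ ga := qf_contDiff hs (fun _ => contDiff_const) (pdr_contDiff hρ)
  have hdec : ContDiff ℝ ∞ de := qf_contDiff hs (fun _ => contDiff_const) (fun _ => contDiff_const)
  have hDc : ContDiff ℝ ∞ fun x => al x * de x - ga x ^ 2 := (halc.mul hdec).sub (hgac.pow 2)
  obtain ⟨A, hA, hA0, R₁, hR₁, hAR⟩ := pos_ext halc (fun x => qf_nonneg (hpos x) _)
    (qf_pos (hpos p) hdne)
  obtain ⟨D, hDD, hD0, R₂, hR₂, hDR⟩ := pos_ext hDc (fun x => gram_nonneg (hpos x) _ _)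
    (gram_pos (hpos p) hdne hτ hτp)
  -- `k`, `b = -k - i γ/A`
  have hsq : ContDiff ℝ ∞ fun x => √(D x) := hDD.sqrt fun x => (hD0 x).ne'
  set k : V n → ℝ := fun x => √(D x) / A x with hk
  have hkc : ContDiff ℝ ∞ k := hsq.div hA fun x => (hA0 x).ne'
  have hk0 : ∀ x, 0 < k x := fun x => div_pos (Real.sqrt_pos.2 (hD0 x)) (hA0 x)
  set b : V n → ℂ := fun x => -((k x : ℝ) : ℂ) + Complex.I * ((-(ga x / A x) : ℝ) : ℂ) with hb
  have hbc : ContDiff ℝ ∞ b := (cx_contDiff hkc).neg.add (contDiff_const.mul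
    (cx_contDiff (hgac.div hA fun x => (hA0 x).ne').neg))
  set Θ : V n → ℂ := fun x => lin τ x + cx ρ x * b x with hΘd
  have hrb : ContDiff ℝ ∞ fun x => cx ρ x * b x := hr.mul hbc
  have hΘ : ContDiff ℝ ∞ Θ := (lin_contDiff τ).add hrb
  set e : V n → ℂ := fun x => 2 * B s (lin τ) b x + B s (fun y => cx ρ y * b y) b x +
    b x * B s b (cx ρ) x with he
  have hec : ContDiff ℝ ∞ e :=
    ((contDiff_const.mul (contDiff_B hs (lin_contDiff τ) hbc)).add (contDiff_B hs hrb hbc)).add
      (hbc.mul (contDiff_B hs hbc hr))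
  -- algebra
  have hB1 : ∀ x, B s Θ Θ x = (-(de x : ℂ) + 2 * b x * (Complex.I * ga x) + b x ^ 2 * al x) +
      cx ρ x * e x := by
    intro x
    have e1 : B s Θ Θ x = B s (lin τ) (lin τ) x + B s (lin τ) (fun y => cx ρ y * b y) x +
        (B s (fun y => cx ρ y * b y) (lin τ) x +
          B s (fun y => cx ρ y * b y) (fun y => cx ρ y * b y) x) := by
      rw [B_add_left s (lin_contDiff τ) hrb, B_add_right s (lin_contDiff τ) hrb,
        B_add_right s (lin_contDiff τ) hrb]
    rw [e1, B_symm hsym (fun y => cx ρ y * b y) (lin τ), B_mul_right s hr hbc,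
      B_mul_right s hr hbc (u := fun y => cx ρ y * b y), B_mul_left s hr hbc (u := cx ρ),
      B_lin_lin, B_lin_cx s τ hρ, B_cx_cx s hρ]
    simp only [he]
    ring
  have hB2 : ∀ x, B s Θ (cx ρ) x = Complex.I * ga x + cx ρ x * B s b (cx ρ) x + b x * al x := by
    intro x
    rw [B_add_left s (lin_contDiff τ) hrb, B_mul_left s hr hbc (u := cx ρ), B_lin_cx s τ hρ,
      B_cx_cx s hρ]
    ring
  -- `b` near `p`
  have hbp : ∀ x ∈ Metric.ball p (min R₁ R₂), b x = -((√(D x) : ℂ) + Complex.I * ga x) / al x ∧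
      (√(D x) : ℂ) ^ 2 = al x * de x - ga x ^ 2 ∧ (al x : ℂ) ≠ 0 := by
    intro x hx
    have h1 : A x = al x := hAR x (Metric.ball_subset_ball (min_le_left _ _) hx)
    have h2 : D x = al x * de x - ga x ^ 2 := hDR x (Metric.ball_subset_ball (min_le_right _ _) hx)
    have h3 : (al x : ℂ) ≠ 0 := by
      rw [← h1]; exact_mod_cast (hA0 x).ne'
    refine ⟨?_, ?_, h3⟩
    · simp only [hb, hk, h1]
      push_cast
      field_simp
      ring
    · have h4 : √(D x) ^ 2 = al x * de x - ga x ^ 2 := by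
        rw [Real.sq_sqrt (hD0 x).le, h2]
      exact_mod_cast h4
  have hpb : p ∈ Metric.ball p (min R₁ R₂) := Metric.mem_ball_self (lt_min hR₁ hR₂)
  obtain ⟨hp1, hp2, hp3⟩ := hbp p hpb
  -- division
  have hgp : B s Θ (cx ρ) p ≠ 0 := by
    have h1 : B s Θ (cx ρ) p = -(√(D p) : ℂ) := by
      rw [hB2, hp1]
      unfold cx
      rw [hp]
      field_simp
      push_cast
      ring
    rw [h1, neg_ne_zero]
    exact_mod_cast (Real.sqrt_pos.2 (hD0 p)).ne'
  obtain ⟨g, hg, R₃, hR₃, hgR⟩ := inv_ext (contDiff_B hs hΘ hr) hgp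
  refine ⟨b p, Θ, k, Metric.ball p (min (min R₁ R₂) R₃), ?_, hΘ, hkc.continuous, hk0, ?_, ?_,
    Metric.isOpen_ball, Metric.mem_ball_self (lt_min (lt_min hR₁ hR₂) hR₃), ?_⟩
  · -- the modulus of `β`
    have h1 : A p = al p := hAR p (Metric.ball_subset_ball (min_le_left _ _) hpb)
    have h2 : D p = al p * de p - ga p ^ 2 :=
      hDR p (Metric.ball_subset_ball (min_le_right _ _) hpb)
    have h3 : 0 < al p := h1 ▸ hA0 p
    have h4 : ‖b p‖ ^ 2 = k p ^ 2 + (ga p / A p) ^ 2 := by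
      rw [← Complex.normSq_eq_norm_sq, Complex.normSq_apply]
      simp [hb]
      ring
    have h5 : √(D p) ^ 2 = D p := Real.sq_sqrt (hD0 p).le
    have h6 : gr s ρ ρ p = al p := rfl
    have h7 : (∑ i, ∑ j, s p i j * τ i * τ j) = de p := rfl
    rw [h4, h6, h7]
    simp only [hk]
    rw [h1, div_pow, div_pow, h5, h2]
    field_simp
    ring
  · intro x
    simp only [hΘd, hb, lin, cx]
    simp
  · intro a
    have h1 : pd a Θ p = pd a (lin τ) p + pd a (fun x => cx ρ x * b x) p := by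
      unfold pd
      rw [hΘd, fderiv_fun_add ((lin_contDiff τ).differentiable (by simp) p)
        (hrb.differentiable (by simp) p)]
      rfl
    rw [h1, pd_lin, pd_mul hr hbc, pd_cx hρ]
    unfold cx
    rw [hp]
    push_cast
    ring
  · intro S hS hSG χ hχ hχ0 K
    have hPh : Ph s Θ (cx ρ) S e g := by
      refine ⟨hΘ, hr, hec, hg, fun x hx => ?_, fun x hx => ?_⟩
      · obtain ⟨h1, h2, h3⟩ := hbp x (Metric.ball_subset_ball (min_le_left _ _) (hSG hx))
        rw [hB1]
        have h4 := eik_pt h3 h2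
        rw [← h1] at h4
        linear_combination h4
      · exact hgR x (Metric.ball_subset_ball (min_le_right _ _) (hSG hx))
    exact quasi_bd hs hsym hS hPh ⟨hχ, hχ0⟩ K

end Vale.Agent.P088.R2.H381
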