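import Vale.Agent.P088.R2.H381.QCore
import Vale.Agent.P088.R2.H381.QAlg

/-!
# P088, boundary quasimodes: the row B_QU
-/

open MeasureTheory Set Filter Topology
open scoped ContDiff Matrix ComplexConjugate

noncomputable section

namespace Vale.Agent.P088.R2.H381

open Vale.Agent.P088.LR Vale.Agent.P088.LR.B

variable {n : ℕ}

/-- A zero of `ρ` is in the closure of the domain. -/
theorem mem_closure {ρ : V n → ℝ} (hD : Dom ρ) {p : V n} (hp : ρ p = 0) : p ∈ closure (Om ρ) := by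
  rw [Metric.mem_closure_iff]
  intro r hr
  obtain ⟨c, hc, M, hM, hlow⟩ := lay_low hD.sm hp (hD.nz p hp) (half_pos hr)
  have h1 := hlow M le_rfl
  have h2 : 0 < (volume (Metric.closedBall p (r / 2) ∩ {x | 1 / M < ρ x ∧ ρ x < 2 / M})).toReal :=
    lt_of_lt_of_le (by positivity) h1
  obtain ⟨x, hx⟩ : (Metric.closedBall p (r / 2) ∩ {x | 1 / M < ρ x ∧ ρ x < 2 / M}).Nonempty := by
    rw [nonempty_iff_ne_empty]
    intro h
    rw [h] at h2
    simp at h2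
  refine ⟨x, (lt_trans (by positivity) hx.2.1 : 0 < ρ x), ?_⟩
  rw [dist_comm]
  exact lt_of_le_of_lt (Metric.mem_closedBall.1 hx.1) (by linarith)

/-- From `F = 1` to a continuous `F`. -/
theorem lim_F {ρ : V n → ℝ} (hD : Dom ρ) {s : MF n} {p : V n} (hp : ρ p = 0) {ζ : Fin n → ℂ} {j : ℕ}
    {U : ℕ → V n → ℂ} {Z : ℕ → ℝ} (h : ∀ N : ℕ, Cor ρ s p ζ j (1 / ((N : ℝ) + 1)) (U N) (Z N))
    {F : V n → ℂ} (hF : ContinuousOn F (closure (Om ρ))) (a b : Fin n) :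
    Tendsto (fun N => ((Z N : ℝ) : ℂ)⁻¹ * ∫ x in Om ρ, ((ρ x ^ j : ℝ) : ℂ) * F x *
        pd a (U N) x * (starRingEnd ℂ) (pd b (U N) x)) atTop (𝓝 (F p * ζ a * conj (ζ b))) := by
  have hρc := hD.sm.continuous
  have hρj : Continuous fun x => ((ρ x ^ j : ℝ) : ℂ) :=
    Complex.continuous_ofReal.comp (hρc.pow j)
  have hb := Om_bdd hD
  -- the forms with `F = 1`
  set m : Fin n → Fin n → ℕ → ℂ := fun a b N => ((Z N : ℝ) : ℂ)⁻¹ *
    (∫ x in Om ρ, ((ρ x ^ j : ℝ) : ℂ) * (pd a (U N) x * conj (pd b (U N) x))) with hm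
  have hε : Tendsto (fun N : ℕ => 1 / ((N : ℝ) + 1)) atTop (𝓝 0) :=
    tendsto_one_div_add_atTop_nhds_zero_nat
  have hml : ∀ a b, Tendsto (m a b) atTop (𝓝 (ζ a * conj (ζ b))) := by
    intro a b
    rw [tendsto_iff_norm_sub_tendsto_zero]
    exact squeeze_zero (fun N => norm_nonneg _) (fun N => (h N).2.2.2.2 a b) hε
  -- real masses
  set q : Fin n → ℕ → ℝ := fun a N => (Z N)⁻¹ * ∫ x in Om ρ, ρ x ^ j * ‖pd a (U N) x‖ ^ 2 with hq
  have hqm : ∀ a N, m a a N = ((q a N : ℝ) : ℂ) := by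
    intro a N
    simp only [hm, hq]
    rw [Complex.ofReal_mul, Complex.ofReal_inv, ← integral_complex_ofReal]
    congr 1
    refine integral_congr_ae (Eventually.of_forall fun x => ?_)
    show ((ρ x ^ j : ℝ) : ℂ) * (pd a (U N) x * conj (pd a (U N) x)) =
      ((ρ x ^ j * ‖pd a (U N) x‖ ^ 2 : ℝ) : ℂ)
    rw [Complex.mul_conj, Complex.normSq_eq_norm_sq]
    push_cast
    ring
  have hql : ∀ a, Tendsto (q a) atTop (𝓝 (‖ζ a‖ ^ 2)) := by
    intro a
    have h1 := (Complex.continuous_re.tendsto _).comp (hml a a)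
    have h2 : Complex.re ∘ m a a = q a := by
      funext N
      show (m a a N).re = q a N
      rw [hqm, Complex.ofReal_re]
    rw [h2] at h1
    have h3 : (ζ a * conj (ζ a)).re = ‖ζ a‖ ^ 2 := by
      rw [Complex.mul_conj, Complex.normSq_eq_norm_sq, Complex.ofReal_re]
    rwa [h3] at h1
  have hq0 : ∀ a N, 0 ≤ q a N := by
    intro a N
    have h1 := (h N).2.1
    refine mul_nonneg (inv_nonneg.2 h1.le) (integral_nonneg_of_ae
      ((ae_restrict_iff' (Om_meas hρc)).2 (Eventually.of_forall fun x hx => ?_)))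
    have hx0 : 0 < ρ x := hx
    show 0 ≤ ρ x ^ j * ‖pd a (U N) x‖ ^ 2
    positivity
  -- the difference
  have hpc := mem_closure hD hp
  have hdiff : Tendsto (fun N => ((Z N : ℝ) : ℂ)⁻¹ * (∫ x in Om ρ, ((ρ x ^ j : ℝ) : ℂ) * F x *
        pd a (U N) x * (starRingEnd ℂ) (pd b (U N) x)) - F p * m a b N) atTop (𝓝 0) := by
    rw [Metric.tendsto_atTop]
    intro ε hε0
    set Q : ℝ := ‖ζ a‖ ^ 2 + ‖ζ b‖ ^ 2 + 2 with hQ
    have hQ0 : 0 < Q := by positivity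
    -- closeness of `F`
    have hcw : ContinuousWithinAt F (closure (Om ρ)) p := hF p hpc
    obtain ⟨δ, hδ, hFδ⟩ := Metric.continuousWithinAt_iff.1 hcw (ε / (2 * Q)) (by positivity)
    have e1 : ∀ᶠ N : ℕ in atTop, 1 / ((N : ℝ) + 1) < δ := hε.eventually (gt_mem_nhds hδ)
    have e2 : ∀ᶠ N in atTop, q a N < ‖ζ a‖ ^ 2 + 1 := (hql a).eventually (gt_mem_nhds (by linarith))
    have e3 : ∀ᶠ N in atTop, q b N < ‖ζ b‖ ^ 2 + 1 := (hql b).eventually (gt_mem_nhds (by linarith))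
    obtain ⟨N₀, hN₀⟩ := eventually_atTop.1 (e1.and (e2.and e3))
    refine ⟨N₀, fun N hN => ?_⟩
    obtain ⟨h1, h2, h3⟩ := hN₀ N hN
    obtain ⟨hUs, hZ0, hU0, -, -⟩ := h N
    have hac := pdc_continuous hUs a
    have hbc := pdc_continuous hUs b
    have hcc : Continuous fun x => pd a (U N) x * conj (pd b (U N) x) :=
      hac.mul (Complex.continuous_conj.comp hbc)
    have i1 : IntegrableOn (fun x => ((ρ x ^ j : ℝ) : ℂ) * F x * pd a (U N) x *
        conj (pd b (U N) x)) (Om ρ) := by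
      have : ContinuousOn (fun x => ((ρ x ^ j : ℝ) : ℂ) * F x * pd a (U N) x *
          conj (pd b (U N) x)) (closure (Om ρ)) :=
        ((hρj.continuousOn.mul hF).mul hac.continuousOn).mul
          (Complex.continuous_conj.comp hbc).continuousOn
      exact (this.integrableOn_compact hb.isCompact_closure).mono_set subset_closure
    have i2 : IntegrableOn (fun x => F p * (((ρ x ^ j : ℝ) : ℂ) * (pd a (U N) x *
        conj (pd b (U N) x)))) (Om ρ) := int_Om hD (continuous_const.mul (hρj.mul hcc))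
    have i3 : IntegrableOn (fun x => ρ x ^ j * ‖pd a (U N) x‖ ^ 2) (Om ρ) :=
      int_Om hD ((hρc.pow j).mul (hac.norm.pow 2))
    have i4 : IntegrableOn (fun x => ρ x ^ j * ‖pd b (U N) x‖ ^ 2) (Om ρ) :=
      int_Om hD ((hρc.pow j).mul (hbc.norm.pow 2))
    rw [dist_zero_right]
    have e4 : ((Z N : ℝ) : ℂ)⁻¹ * (∫ x in Om ρ, ((ρ x ^ j : ℝ) : ℂ) * F x *
        pd a (U N) x * conj (pd b (U N) x)) - F p * m a b N =
        ((Z N : ℝ) : ℂ)⁻¹ * ∫ x in Om ρ, (((ρ x ^ j : ℝ) : ℂ) * F x * pd a (U N) x *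
        conj (pd b (U N) x) - F p * (((ρ x ^ j : ℝ) : ℂ) * (pd a (U N) x *
        conj (pd b (U N) x)))) := by
      rw [integral_sub i1 i2, integral_const_mul]
      simp only [hm]
      ring
    rw [e4, norm_mul, norm_inv, Complex.norm_real, Real.norm_eq_abs, abs_of_pos hZ0]
    have h5 : ‖∫ x in Om ρ, (((ρ x ^ j : ℝ) : ℂ) * F x * pd a (U N) x *
        conj (pd b (U N) x) - F p * (((ρ x ^ j : ℝ) : ℂ) * (pd a (U N) x *
        conj (pd b (U N) x))))‖ ≤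
        ∫ x in Om ρ, (ε / (2 * Q)) * (ρ x ^ j * ‖pd a (U N) x‖ ^ 2 + ρ x ^ j * ‖pd b (U N) x‖ ^ 2) := by
      refine (norm_integral_le_integral_norm _).trans ?_
      refine setIntegral_mono_on (i1.sub i2).norm ((i3.add i4).const_mul _) (Om_meas hρc)
        fun x hx => ?_
      have hx0 : 0 < ρ x := hx
      have e5 : ((ρ x ^ j : ℝ) : ℂ) * F x * pd a (U N) x * conj (pd b (U N) x) -
          F p * (((ρ x ^ j : ℝ) : ℂ) * (pd a (U N) x * conj (pd b (U N) x))) =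
          (F x - F p) * (((ρ x ^ j : ℝ) : ℂ) * (pd a (U N) x * conj (pd b (U N) x))) := by ring
      rw [e5, norm_mul, norm_mul, norm_mul, RCLike.norm_conj, Complex.norm_real, Real.norm_eq_abs,
        abs_of_nonneg (by positivity)]
      by_cases hxS : x ∈ Metric.closedBall p (1 / ((N : ℝ) + 1))
      · have h6 : ‖F x - F p‖ ≤ ε / (2 * Q) := by
          rw [← dist_eq_norm]
          exact (hFδ (subset_closure hx) (lt_of_le_of_lt (Metric.mem_closedBall.1 hxS) h1)).le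
        have h7 : ‖pd a (U N) x‖ * ‖pd b (U N) x‖ ≤ ‖pd a (U N) x‖ ^ 2 + ‖pd b (U N) x‖ ^ 2 := by
          nlinarith [sq_nonneg (‖pd a (U N) x‖ - ‖pd b (U N) x‖), sq_nonneg ‖pd a (U N) x‖,
            sq_nonneg ‖pd b (U N) x‖]
        calc ‖F x - F p‖ * (ρ x ^ j * (‖pd a (U N) x‖ * ‖pd b (U N) x‖))
            ≤ (ε / (2 * Q)) * (ρ x ^ j * (‖pd a (U N) x‖ ^ 2 + ‖pd b (U N) x‖ ^ 2)) := by gcongr
          _ = _ := by ring
      · rw [zero_off Metric.isClosed_closedBall hU0 a x hxS]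
        simp only [norm_zero, zero_mul, mul_zero]
        positivity
    have h6 : (Z N)⁻¹ * ∫ x in Om ρ, (ε / (2 * Q)) * (ρ x ^ j * ‖pd a (U N) x‖ ^ 2 +
        ρ x ^ j * ‖pd b (U N) x‖ ^ 2) = (ε / (2 * Q)) * (q a N + q b N) := by
      rw [integral_const_mul, integral_add i3 i4]
      simp only [hq]
      ring
    have h7 : (Z N)⁻¹ * ‖∫ x in Om ρ, (((ρ x ^ j : ℝ) : ℂ) * F x * pd a (U N) x *
        conj (pd b (U N) x) - F p * (((ρ x ^ j : ℝ) : ℂ) * (pd a (U N) x *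
        conj (pd b (U N) x))))‖ ≤ (ε / (2 * Q)) * (q a N + q b N) := by
      rw [← h6]
      exact mul_le_mul_of_nonneg_left h5 (inv_nonneg.2 hZ0.le)
    refine lt_of_le_of_lt h7 ?_
    have h8 : q a N + q b N ≤ Q := by rw [hQ]; linarith
    calc (ε / (2 * Q)) * (q a N + q b N) ≤ (ε / (2 * Q)) * Q := by gcongr
      _ = ε / 2 := by field_simp
      _ < ε := by linarith
  have h9 := hdiff.add ((hml a b).const_mul (F p))
  rw [zero_add, ← mul_assoc] at h9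
  refine h9.congr fun N => ?_
  ring

/-- **Row B_QU**, unfolded. -/
theorem rowQU {n : ℕ} (ρ : V n → ℝ) (hD : Dom ρ) (s : MF n) (hs : SmM s)
    (hpos : ∀ x, (s x).PosDef) (p : V n) (hp : ρ p = 0) (τ : V n) (hτ : ∑ i, τ i ^ 2 = 1)
    (hτp : ∑ i, τ i * pd i ρ p = 0) : ∃ β : ℂ,
    ‖β‖ ^ 2 * gr s ρ ρ p = ∑ i, ∑ j, s p i j * τ i * τ j ∧
    ∀ j : ℕ, ∃ (U : ℕ → V n → ℂ) (Z : ℕ → ℝ), (∀ N, ContDiff ℝ ∞ (U N)) ∧ (∀ N, 0 < Z N) ∧
      Tendsto (fun N => (Z N)⁻¹ * ∫ x in Om ρ, ‖dv s (U N) x‖ ^ 2) atTop (𝓝 0) ∧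
      ∀ F : V n → ℂ, ContinuousOn F (closure (Om ρ)) →
        ∀ a b, Tendsto (fun N => ((Z N : ℝ) : ℂ)⁻¹ * ∫ x in Om ρ, ((ρ x ^ j : ℝ) : ℂ) * F x *
          pd a (U N) x * (starRingEnd ℂ) (pd b (U N) x)) atTop
          (𝓝 (F p * (Complex.I * τ a + β * (pd a ρ p : ℝ)) *
            (starRingEnd ℂ) (Complex.I * τ b + β * (pd b ρ p : ℝ)))) := by
  obtain ⟨β, Θ, k, G, h1, h2, h3, h4, h5, h6, h7, h8, h9⟩ := quAlg ρ hD s hs hpos p hp τ hτ hτp
  refine ⟨β, h1, fun j => ?_⟩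
  have hc : ∀ N : ℕ, ∃ (U : V n → ℂ) (Z : ℝ),
      Cor ρ s p (fun a => pd a Θ p) j (1 / ((N : ℝ) + 1)) U Z := fun N =>
    core hD hs hp h2 h3 h4 h5 h7 h8 h9 j (by positivity)
  choose U Z hUZ using hc
  refine ⟨U, Z, fun N => (hUZ N).1, fun N => (hUZ N).2.1, ?_, fun F hF a b => ?_⟩
  · refine squeeze_zero (fun N => ?_) (fun N => (hUZ N).2.2.2.1)
      tendsto_one_div_add_atTop_nhds_zero_nat
    exact mul_nonneg (inv_nonneg.2 (hUZ N).2.1.le) (integral_nonneg fun x => by positivity)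
  · have h10 := lim_F hD hp hUZ hF a b
    rw [h6 a, h6 b] at h10
    exact h10

end Vale.Agent.P088.R2.H381
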