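import Vale.Agent.P088.R2.H794.B.Spec
import Vale.Agent.P088.R2.H381.QRow

/-!
# P088: row B_QU
-/

namespace Vale.Agent.P088.HY.Bd

/-- **Row B_QU.** -/
theorem rowBQU : RowBQU := fun ρ hD s hs hpos p hp τ hτ hτp =>
  R2.H381.rowQU ρ hD s hs hpos p hp τ hτ hτp

end Vale.Agent.P088.HY.Bd
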