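import Vale.Agent.P088.H72.B.Defs

/-!
# P088, boundary quasimodes: lower bound of the volume of a thin layer near a boundary point
-/

open MeasureTheory Set Filter Topology
open scoped ContDiff NNReal ENNReal

noncomputable section

namespace Vale.Agent.P088.R2.H381

open Vale.Agent.P088.LR Vale.Agent.P088.LR.B

variable {n : ℕ}

theorem upd_contDiff (z : V n) (i : Fin n) : ContDiff ℝ ∞ fun t : ℝ => Function.update z i t := by
  refine contDiff_pi.2 fun k => ?_
  by_cases h : k = i
  · subst h; simp only [Function.update_self]; exact contDiff_id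
  · simpa [Function.update_of_ne h] using contDiff_const

theorem upd_deriv (p : V n) (i : Fin n) (t : ℝ) :
    HasDerivAt (fun t : ℝ => Function.update p i t) (Pi.single i 1) t := by
  refine hasDerivAt_pi.2 fun k => ?_
  by_cases h : k = i
  · subst h; simpa using hasDerivAt_id' t
  · simpa [Function.update_of_ne h, Pi.single_eq_of_ne h] using hasDerivAt_const t (p k)

/-- A function on `ℝ` with non-zero derivative takes values of both signs near a zero. -/
theorem signs {f : ℝ → ℝ} {a f' : ℝ} (hf : HasDerivAt f f' a) (h0 : f a = 0) (hf' : f' ≠ 0)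
    {r : ℝ} (hr : 0 < r) : (∃ t ∈ Icc (a - r) (a + r), f t < 0) ∧ ∃ t ∈ Icc (a - r) (a + r), 0 < f t := by
  have hn : Icc (a - r) (a + r) ∈ 𝓝 a := Icc_mem_nhds (by linarith) (by linarith)
  constructor
  · by_contra h
    push Not at h
    have : IsLocalMin f a := by
      filter_upwards [hn] with t ht
      rw [h0]; exact h t ht
    exact hf' (this.hasDerivAt_eq_zero hf)
  · by_contra h
    push Not at h
    have : IsLocalMax f a := by
      filter_upwards [hn] with t ht
      rw [h0]; exact h t ht
    exact hf' (this.hasDerivAt_eq_zero hf)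

theorem exists_pd_ne {ρ : V n → ℝ} {p : V n} (hd : fderiv ℝ ρ p ≠ 0) : ∃ i, pd i ρ p ≠ 0 := by
  by_contra h
  push Not at h
  refine hd (ContinuousLinearMap.coe_injective (LinearMap.pi_ext' fun i => ?_))
  refine LinearMap.ext_ring ?_
  simpa [pd] using h i

theorem lay_low {ρ : V n → ℝ} (hρ : ContDiff ℝ ∞ ρ) {p : V n} (hp : ρ p = 0)
    (hd : fderiv ℝ ρ p ≠ 0) {r : ℝ} (hr : 0 < r) :
    ∃ c > 0, ∃ M > 0, ∀ lam : ℝ, M ≤ lam → c / lam ≤
      (volume (Metric.closedBall p r ∩ {x | 1 / lam < ρ x ∧ ρ x < 2 / lam})).toReal := by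
  obtain ⟨i, hi⟩ := exists_pd_ne hd
  have hρc : Continuous ρ := hρ.continuous
  have hder : HasDerivAt (fun t : ℝ => ρ (Function.update p i t)) (pd i ρ p) (p i) := by
    have h1 : HasFDerivAt ρ (fderiv ℝ ρ p) (Function.update p i (p i)) := by
      rw [Function.update_eq_self]
      exact ((hρ.differentiable (by simp)) p).hasFDerivAt
    exact h1.comp_hasDerivAt (p i) (upd_deriv p i (p i))
  obtain ⟨⟨t₁, ht₁, h₁⟩, t₂, ht₂, h₂⟩ := signs hder (by simpa using hp) hi hr
  -- a neighbourhood of `p` in the other coordinates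
  have hc1 : Continuous fun z : V n => ρ (Function.update z i t₁) :=
    hρc.comp (continuous_id.update i continuous_const)
  have hc2 : Continuous fun z : V n => ρ (Function.update z i t₂) :=
    hρc.comp (continuous_id.update i continuous_const)
  have hev : ∀ᶠ z in 𝓝 p, ρ (Function.update z i t₁) < 0 ∧
      ρ (Function.update p i t₂) / 2 < ρ (Function.update z i t₂) :=
    (hc1.continuousAt.eventually (gt_mem_nhds h₁)).and
      (hc2.continuousAt.eventually (lt_mem_nhds (by linarith)))
  obtain ⟨δ₀, hδ₀, hδ⟩ := Metric.eventually_nhds_iff_ball.1 hev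
  set δ : ℝ := min r (δ₀ / 2) with hδd
  have hδ1 : 0 < δ := lt_min hr (by positivity)
  have hδ2 : δ ≤ r := min_le_left _ _
  have hδ3 : δ < δ₀ := (min_le_right _ _).trans_lt (by linarith)
  -- Lipschitz constant
  obtain ⟨K, hK⟩ : ∃ K : ℝ≥0, LipschitzOnWith K ρ (Metric.closedBall p r) := by
    obtain ⟨K, hK⟩ := (isCompact_closedBall p r).exists_bound_of_continuousOn
      (hρ.continuous_fderiv (by simp)).continuousOn
    refine ⟨Real.toNNReal K, ?_⟩
    refine (convex_closedBall p r).lipschitzOnWith_of_nnnorm_fderiv_le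
      (fun x _ => (hρ.differentiable (by simp)) x) fun x hx => ?_
    have h1 : ‖fderiv ℝ ρ x‖₊ = Real.toNNReal ‖fderiv ℝ ρ x‖ := by simp
    rw [h1]
    exact Real.toNNReal_le_toNNReal (hK x hx)
  set Ψ : V n → V n := fun x => Function.update x i (ρ x) with hΨ
  set K' : ℝ≥0 := max 1 K with hK'
  have hΨK : LipschitzOnWith K' Ψ (Metric.closedBall p r) := by
    refine LipschitzOnWith.of_dist_le_mul fun x hx y hy => ?_
    rw [dist_pi_le_iff (by positivity)]
    intro k
    by_cases h : k = i
    · subst h
      simp only [hΨ, Function.update_self]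
      refine (hK.dist_le_mul x hx y hy).trans ?_
      exact mul_le_mul_of_nonneg_right (NNReal.coe_le_coe.2 (le_max_right _ _)) dist_nonneg
    · simp only [hΨ, Function.update_of_ne h]
      calc dist (x k) (y k) ≤ 1 * dist x y := by rw [one_mul]; exact dist_le_pi_dist x y k
        _ ≤ K' * dist x y := mul_le_mul_of_nonneg_right (by
          have : (1 : ℝ≥0) ≤ K' := le_max_left _ _
          exact_mod_cast this) dist_nonneg
  have hK'0 : (0 : ℝ) < K' := lt_of_lt_of_le one_pos (by
    have : (1 : ℝ≥0) ≤ K' := le_max_left _ _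
    exact_mod_cast this)
  set P : ℝ := ∏ k : Fin n, (if k = i then 1 else 2 * δ) with hP
  have hP0 : 0 < P := Finset.prod_pos fun k _ => by split_ifs <;> positivity
  set q : ℝ := ρ (Function.update p i t₂) with hq
  refine ⟨P / (K' : ℝ) ^ n, by positivity, 4 / q, by positivity, fun lam hlam => ?_⟩
  have hlam0 : 0 < lam := lt_of_lt_of_le (by positivity) hlam
  have hlamq : 2 / lam ≤ q / 2 := by
    rw [div_le_iff₀ (by positivity : 0 < lam)]
    rw [div_le_iff₀ (by positivity : (0:ℝ) < q)] at hlam
    linarith
  set A : Set (V n) := Metric.closedBall p r ∩ {x | 1 / lam < ρ x ∧ ρ x < 2 / lam} with hA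
  set B : Set (V n) := Set.pi univ fun k => if k = i then Ioo (1 / lam) (2 / lam) else
    Icc (p k - δ) (p k + δ) with hB
  have hBA : B ⊆ Ψ '' A := by
    intro z hz
    have hzi : z i ∈ Ioo (1 / lam) (2 / lam) := by
      have := hz i (mem_univ _)
      simpa using this
    have hzk : ∀ k, k ≠ i → z k ∈ Icc (p k - δ) (p k + δ) := by
      intro k hk
      have := hz k (mem_univ _)
      simpa [hk] using this
    -- the point with the coordinate `i` of `p`
    set w : V n := Function.update z i (p i) with hw
    have hwb : w ∈ Metric.ball p δ₀ := by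
      rw [Metric.mem_ball]
      refine lt_of_le_of_lt ((dist_pi_le_iff hδ1.le).2 fun k => ?_) hδ3
      by_cases h : k = i
      · subst h; simp [hw, hδ1.le]
      · rw [hw, Function.update_of_ne h, Real.dist_eq, abs_le]
        have := hzk k h
        constructor <;> linarith [this.1, this.2]
    obtain ⟨hn1, hn2⟩ := hδ w hwb
    have hwu : ∀ t, Function.update w i t = Function.update z i t := by
      intro t; rw [hw, Function.update_idem]
    rw [hwu] at hn1 hn2
    have hcont : ContinuousOn (fun t : ℝ => ρ (Function.update z i t)) (uIcc t₁ t₂) :=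
      (hρc.comp (upd_contDiff z i).continuous).continuousOn
    have hivt := intermediate_value_uIcc hcont
    have hzmem : z i ∈ uIcc (ρ (Function.update z i t₁)) (ρ (Function.update z i t₂)) := by
      have h3 : 0 < 1 / lam := by positivity
      rw [mem_uIcc]
      left
      constructor
      · linarith [hzi.1]
      · linarith [hzi.2]
    obtain ⟨t, ht, hte⟩ := hivt hzmem
    have ht' : t ∈ Icc (p i - r) (p i + r) := by
      exact (ordConnected_Icc.uIcc_subset ht₁ ht₂) ht
    refine ⟨Function.update z i t, ⟨?_, ?_⟩, ?_⟩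
    · rw [Metric.mem_closedBall, dist_pi_le_iff hr.le]
      intro k
      by_cases h : k = i
      · subst h
        rw [Function.update_self, Real.dist_eq, abs_le]
        constructor <;> linarith [ht'.1, ht'.2]
      · rw [Function.update_of_ne h, Real.dist_eq, abs_le]
        have := hzk k h
        constructor <;> linarith [this.1, this.2]
    · show 1 / lam < ρ (Function.update z i t) ∧ ρ (Function.update z i t) < 2 / lam
      have : ρ (Function.update z i t) = z i := hte
      rw [this]; exact hzi
    · have : ρ (Function.update z i t) = z i := hte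
      simp only [hΨ]
      rw [this, Function.update_idem, Function.update_eq_self]
  have hvol : volume (Ψ '' A) ≤ (K' : ℝ≥0∞) ^ (n : ℝ) * volume A := by
    have h1 := (hΨK.mono (inter_subset_left : A ⊆ _)).hausdorffMeasure_image_le
      (d := (Fintype.card (Fin n) : ℝ)) (by positivity)
    rw [MeasureTheory.hausdorffMeasure_pi_real, Fintype.card_fin] at h1
    exact h1
  have hvB : volume B = ENNReal.ofReal (P / lam) := by
    rw [hB, volume_pi_pi]
    have h1 : ∀ k : Fin n, volume (if k = i then Ioo (1 / lam) (2 / lam) else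
        Icc (p k - δ) (p k + δ)) = ENNReal.ofReal (if k = i then 1 / lam else 2 * δ) := by
      intro k
      split_ifs
      · rw [Real.volume_Ioo]; congr 1; ring
      · rw [Real.volume_Icc]; congr 1; ring
    simp_rw [h1]
    rw [← ENNReal.ofReal_prod_of_nonneg fun k _ => by split_ifs <;> positivity]
    congr 1
    rw [hP]
    rw [Finset.prod_eq_mul_prod_sdiff_singleton_of_mem (Finset.mem_univ i),
      Finset.prod_eq_mul_prod_sdiff_singleton_of_mem (Finset.mem_univ i)]
    simp only [if_true]
    rw [Finset.prod_congr rfl (fun k hk => ?_)]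
    · ring
    · have : k ≠ i := by simpa using hk
      simp [this]
  have hAfin : volume A ≠ ⊤ :=
    ((measure_mono inter_subset_left).trans_lt (isCompact_closedBall p r).measure_lt_top).ne
  have h1 : ENNReal.ofReal (P / lam) ≤ (K' : ℝ≥0∞) ^ (n : ℝ) * volume A :=
    hvB ▸ (measure_mono hBA).trans hvol
  have h2 := ENNReal.toReal_mono (ENNReal.mul_ne_top (by simp) hAfin) h1
  rw [ENNReal.toReal_ofReal (by positivity), ENNReal.toReal_mul] at h2
  have h3 : ((K' : ℝ≥0∞) ^ (n : ℝ)).toReal = (K' : ℝ) ^ n := by
    simp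
  rw [h3] at h2
  rw [div_div, div_le_iff₀ (by positivity)]
  rw [div_le_iff₀ hlam0] at h2
  nlinarith [h2]

end Vale.Agent.P088.R2.H381
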