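import Vale.Agent.P088.H72.B.Defs

/-!
# P088, boundary quasimodes: upper bound of the layer integral `∫ e^{-λρ}` near a boundary point
-/

open MeasureTheory Set Filter Topology
open scoped ContDiff

noncomputable section

namespace Vale.Agent.P088.R2.H381

open Vale.Agent.P088.LR Vale.Agent.P088.LR.B

variable {n : ℕ}

/-- The logistic function. -/
def lgs (u : ℝ) : ℝ := (1 + Real.exp (-u))⁻¹

theorem lgs_pos (u : ℝ) : 0 < lgs u := inv_pos.2 (by positivity)

theorem lgs_le (u : ℝ) : lgs u ≤ 1 := inv_le_one_of_one_le₀ (by have := Real.exp_pos (-u); linarith)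

theorem lgs_deriv (u : ℝ) : HasDerivAt lgs (Real.exp (-u) * (lgs u) ^ 2) u := by
  have h1 : HasDerivAt (fun u : ℝ => 1 + Real.exp (-u)) (Real.exp (-u) * (-1)) u :=
    ((Real.hasDerivAt_exp (-u)).comp u (hasDerivAt_neg u)).const_add 1
  have h2 := h1.inv (by positivity : (1 + Real.exp (-u)) ≠ 0)
  refine h2.congr_deriv ?_
  unfold lgs
  field_simp

theorem lgs_sq_ge {u : ℝ} (hu : 0 ≤ u) : 1 / 4 ≤ lgs u ^ 2 := by
  have h1 : Real.exp (-u) ≤ 1 := Real.exp_le_one_iff.2 (by linarith)
  have h2 : 1 / 2 ≤ lgs u := by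
    unfold lgs
    rw [one_div]
    exact inv_anti₀ (by positivity) (by linarith)
  nlinarith

theorem exists_dir {L : V n →L[ℝ] ℝ} (hL : L ≠ 0) : ∃ v, 0 < L v := by
  by_contra h
  push Not at h
  refine hL (ContinuousLinearMap.ext fun v => ?_)
  have h1 := h v
  have h2 := h (-v)
  rw [map_neg] at h2
  simpa using le_antisymm h1 (by linarith)

theorem lay_up {ρ : V n → ℝ} (hρ : ContDiff ℝ ∞ ρ) {p : V n} (hd : fderiv ℝ ρ p ≠ 0) :
    ∃ r > 0, ∃ C > 0, ∀ lam : ℝ, 0 < lam →
      ∫ x in Om ρ ∩ Metric.closedBall p r, Real.exp (-(lam * ρ x)) ≤ C / lam := by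
  obtain ⟨v, hv⟩ := exists_dir hd
  have hcont : Continuous fun x => fderiv ℝ ρ x v :=
    (hρ.continuous_fderiv (by simp)).clm_apply continuous_const
  set c : ℝ := fderiv ℝ ρ p v / 2 with hc
  have hc0 : 0 < c := by rw [hc]; linarith
  obtain ⟨R, hR, hRc⟩ : ∃ R > 0, ∀ x ∈ Metric.ball p R, c ≤ fderiv ℝ ρ x v := by
    have h1 : ∀ᶠ x in 𝓝 p, c < fderiv ℝ ρ x v :=
      hcont.continuousAt.eventually (lt_mem_nhds (by rw [hc]; linarith))
    obtain ⟨R, hR, h2⟩ := Metric.eventually_nhds_iff_ball.1 h1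
    exact ⟨R, hR, fun x hx => (h2 x hx).le⟩
  let η : ContDiffBump p := ⟨R / 2, R, by positivity, by linarith⟩
  have hη : ContDiff ℝ ∞ (η : V n → ℝ) := η.contDiff
  have hηs : HasCompactSupport (η : V n → ℝ) := η.hasCompactSupport
  have hη' : Continuous fun x => fderiv ℝ (η : V n → ℝ) x v :=
    (hη.continuous_fderiv (by simp)).clm_apply continuous_const
  have hηs' : HasCompactSupport fun x => fderiv ℝ (η : V n → ℝ) x v :=
    (hηs.fderiv (𝕜 := ℝ)).comp_left (g := fun L : V n →L[ℝ] ℝ => L v) (by simp)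
  set J : ℝ := ∫ x, |fderiv ℝ (η : V n → ℝ) x v| with hJ
  have hJ0 : 0 ≤ J := integral_nonneg fun x => abs_nonneg _
  refine ⟨R / 2, by positivity, (4 * J + 1) / c, by positivity, fun lam hlam => ?_⟩
  set F : V n → ℝ := fun x => lgs (lam * ρ x) with hF
  have hFd : ∀ x, HasFDerivAt F ((Real.exp (-(lam * ρ x)) * lgs (lam * ρ x) ^ 2 * lam) •
      fderiv ℝ ρ x) x := by
    intro x
    have h1 : HasFDerivAt (fun y => lam * ρ y) (lam • fderiv ℝ ρ x) x :=
      ((hρ.differentiable (by simp)) x).hasFDerivAt.const_mul lam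
    have h2 := (lgs_deriv (lam * ρ x)).comp_hasFDerivAt x h1
    rw [smul_smul] at h2
    exact h2
  have hFc : Continuous F := continuous_iff_continuousAt.2 fun x => (hFd x).continuousAt
  have hF' : ∀ x, fderiv ℝ F x v =
      lam * (Real.exp (-(lam * ρ x)) * lgs (lam * ρ x) ^ 2 * fderiv ℝ ρ x v) := by
    intro x
    rw [(hFd x).fderiv]
    simp
    ring
  have hρc : Continuous ρ := hρ.continuous
  have hF'c : Continuous fun x => fderiv ℝ F x v := by
    simp_rw [hF']
    have h1 : Continuous fun x => lgs (lam * ρ x) := hFc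
    fun_prop
  have hibp : ∫ x, η x * fderiv ℝ F x v = -∫ x, fderiv ℝ (η : V n → ℝ) x v * F x := by
    refine integral_mul_fderiv_eq_neg_fderiv_mul_of_integrable ?_ ?_ ?_ ?_ ?_
    · exact (hη'.mul hFc).integrable_of_hasCompactSupport (hηs'.mul_right)
    · exact (η.continuous.mul hF'c).integrable_of_hasCompactSupport (hηs.mul_right)
    · exact (η.continuous.mul hFc).integrable_of_hasCompactSupport (hηs.mul_right)
    · exact fun x _ => (hη.differentiable (by simp)) x
    · exact fun x _ => (hFd x).differentiableAt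
  have hR1 : ∫ x, η x * fderiv ℝ F x v ≤ J := by
    rw [hibp, ← integral_neg, hJ]
    refine integral_mono ?_ ?_ fun x => ?_
    · exact ((hη'.mul hFc).integrable_of_hasCompactSupport (hηs'.mul_right)).neg
    · exact (hη'.integrable_of_hasCompactSupport hηs').abs
    · show -(fderiv ℝ (η : V n → ℝ) x v * F x) ≤ |fderiv ℝ (η : V n → ℝ) x v|
      have h1 := neg_abs_le (fderiv ℝ (η : V n → ℝ) x v * F x)
      rw [abs_mul, abs_of_pos (lgs_pos (lam * ρ x))] at h1
      have h2 := mul_le_mul_of_nonneg_left (lgs_le (lam * ρ x))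
        (abs_nonneg (fderiv ℝ (η : V n → ℝ) x v))
      simp only [hF] at *
      linarith
  have hmeas : MeasurableSet (Om ρ ∩ Metric.closedBall p (R / 2)) :=
    (measurableSet_lt measurable_const hρc.measurable).inter Metric.isClosed_closedBall.measurableSet
  have hexpc : Continuous fun x => Real.exp (-(lam * ρ x)) := by fun_prop
  have hint : IntegrableOn (fun x => Real.exp (-(lam * ρ x))) (Om ρ ∩ Metric.closedBall p (R / 2)) :=
    (hexpc.continuousOn.integrableOn_compact (isCompact_closedBall p (R / 2))).mono_set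
      inter_subset_right
  have hge : (lam * c / 4) * ∫ x in Om ρ ∩ Metric.closedBall p (R / 2), Real.exp (-(lam * ρ x)) ≤
      ∫ x, η x * fderiv ℝ F x v := by
    rw [← integral_const_mul, ← integral_indicator hmeas]
    refine integral_mono ?_ ?_ fun x => ?_
    · exact (integrable_indicator_iff hmeas).2 (hint.const_mul _)
    · exact (η.continuous.mul hF'c).integrable_of_hasCompactSupport (hηs.mul_right)
    · show (Om ρ ∩ Metric.closedBall p (R / 2)).indicator
        (fun x => lam * c / 4 * Real.exp (-(lam * ρ x))) x ≤ η x * fderiv ℝ F x v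
      by_cases hx : x ∈ Om ρ ∩ Metric.closedBall p (R / 2)
      · rw [indicator_of_mem hx, η.one_of_mem_closedBall hx.2, one_mul, hF']
        have h1 : c ≤ fderiv ℝ ρ x v :=
          hRc x (Metric.closedBall_subset_ball (by linarith) hx.2)
        have h2 : 1 / 4 ≤ lgs (lam * ρ x) ^ 2 := lgs_sq_ge (mul_nonneg hlam.le (le_of_lt hx.1))
        have h3 := Real.exp_pos (-(lam * ρ x))
        have h4 : 1 / 4 * c ≤ lgs (lam * ρ x) ^ 2 * fderiv ℝ ρ x v :=
          mul_le_mul h2 h1 hc0.le (by positivity)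
        have h5 := mul_le_mul_of_nonneg_left h4 (mul_nonneg hlam.le h3.le)
        nlinarith [h5]
      · rw [indicator_of_notMem hx]
        by_cases hx2 : x ∈ Metric.ball p R
        · rw [hF']
          have h1 := hRc x hx2
          have h3 := Real.exp_pos (-(lam * ρ x))
          have h4 := lgs_pos (lam * ρ x)
          have h5 := η.nonneg' x
          have h6 : 0 ≤ fderiv ℝ ρ x v := hc0.le.trans h1
          positivity
        · have h1 : η x = 0 := by
            have h2 := η.support_eq
            by_contra h3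
            exact hx2 (h2 ▸ (Function.mem_support.2 h3) : x ∈ Metric.ball p R)
          rw [h1, zero_mul]
  have h1 := hge.trans hR1
  rw [le_div_iff₀ hlam]
  rw [le_div_iff₀ hc0]
  nlinarith [h1]

end Vale.Agent.P088.R2.H381
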