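import Vale.Agent.P088.R2.H381.QMod

/-!
# P088, boundary quasimodes: pointwise bounds
-/

open MeasureTheory Set Filter Topology
open scoped ContDiff Matrix

noncomputable section

namespace Vale.Agent.P088.R2.H381

open Vale.Agent.P088.LR Vale.Agent.P088.LR.B Vale.Agent.P088.LR.H705

variable {n : ℕ}

theorem Sp_bdd {S : Set (V n)} (hS : IsCompact S) {f : V n → ℂ} (hf : Sp S f) :
    ∃ C, 0 ≤ C ∧ ∀ x, ‖f x‖ ≤ C := by
  obtain ⟨C, hC⟩ := hS.exists_bound_of_continuousOn hf.1.continuous.continuousOn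
  refine ⟨max C 0, le_max_right _ _, fun x => ?_⟩
  by_cases hx : x ∈ S
  · exact (hC x hx).trans (le_max_left _ _)
  · rw [hf.2 x hx, norm_zero]
    exact le_max_right _ _

theorem norm_lm (N : ℕ) : ‖lm N‖ = (N : ℝ) + 1 := by
  unfold lm
  have : ((N : ℂ) + 1) = ((N + 1 : ℕ) : ℂ) := by push_cast; rfl
  rw [this, Complex.norm_natCast]
  push_cast
  rfl

theorem norm_lm_cx (N : ℕ) (ρ : V n → ℝ) (x : V n) : ‖lm N * cx ρ x‖ = ((N : ℝ) + 1) * |ρ x| := by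
  rw [norm_mul, norm_lm]
  unfold cx
  rw [Complex.norm_real, Real.norm_eq_abs]

/-- The bound of a member of `Mo`. -/
theorem Mo_bd {S : Set (V n)} (hS : IsCompact S) {Θ : V n → ℂ} {ρ : V n → ℝ} {q : ℕ}
    {W : ℕ → V n → ℂ} (hW : W ∈ Mo Θ (cx ρ) S q) : ∃ (C : ℝ) (L : ℕ), 0 ≤ C ∧ ∀ N x,
      ‖W N x‖ ≤ C * (((N : ℝ) + 1)⁻¹) ^ q * (1 + ((N : ℝ) + 1) * |ρ x|) ^ L *
        ‖Complex.exp (lm N * Θ x)‖ := by
  induction hW using Submodule.span_induction with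
  | mem W hW =>
    obtain ⟨q', l, f, hq, hf, rfl⟩ := hW
    obtain ⟨C, hC, hb⟩ := Sp_bdd hS hf
    refine ⟨C, l, hC, fun N x => ?_⟩
    unfold gen
    rw [norm_mul, norm_mul, norm_mul, norm_pow, norm_pow, norm_inv, norm_lm, norm_lm_cx]
    have h1 : (((N : ℝ) + 1)⁻¹) ^ q' ≤ (((N : ℝ) + 1)⁻¹) ^ q :=
      pow_le_pow_of_le_one (by positivity) (inv_le_one_of_one_le₀ (by linarith [(Nat.cast_nonneg N : (0:ℝ) ≤ N)])) hq
    have h2 : (((N : ℝ) + 1) * |ρ x|) ^ l ≤ (1 + ((N : ℝ) + 1) * |ρ x|) ^ l :=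
      pow_le_pow_left₀ (by positivity) (by linarith) l
    calc (((N : ℝ) + 1)⁻¹) ^ q' * (‖Complex.exp (lm N * Θ x)‖ * ((((N : ℝ) + 1) * |ρ x|) ^ l * ‖f x‖))
        ≤ (((N : ℝ) + 1)⁻¹) ^ q * (‖Complex.exp (lm N * Θ x)‖ *
          ((1 + ((N : ℝ) + 1) * |ρ x|) ^ l * C)) := by
          gcongr
          exact hb x
      _ = _ := by ring
  | zero => exact ⟨0, 0, le_rfl, fun N x => by simp⟩
  | add W₁ W₂ _ _ h₁ h₂ =>
    obtain ⟨C₁, L₁, hC₁, hb₁⟩ := h₁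
    obtain ⟨C₂, L₂, hC₂, hb₂⟩ := h₂
    refine ⟨C₁ + C₂, max L₁ L₂, add_nonneg hC₁ hC₂, fun N x => ?_⟩
    have h3 : 1 ≤ 1 + ((N : ℝ) + 1) * |ρ x| := by
      have : 0 ≤ ((N : ℝ) + 1) * |ρ x| := by positivity
      linarith
    have h4 : (1 + ((N : ℝ) + 1) * |ρ x|) ^ L₁ ≤ (1 + ((N : ℝ) + 1) * |ρ x|) ^ max L₁ L₂ :=
      pow_le_pow_right₀ h3 (le_max_left _ _)
    have h5 : (1 + ((N : ℝ) + 1) * |ρ x|) ^ L₂ ≤ (1 + ((N : ℝ) + 1) * |ρ x|) ^ max L₁ L₂ :=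
      pow_le_pow_right₀ h3 (le_max_right _ _)
    calc ‖(W₁ + W₂) N x‖ ≤ ‖W₁ N x‖ + ‖W₂ N x‖ := norm_add_le _ _
      _ ≤ C₁ * (((N : ℝ) + 1)⁻¹) ^ q * (1 + ((N : ℝ) + 1) * |ρ x|) ^ max L₁ L₂ *
          ‖Complex.exp (lm N * Θ x)‖ + C₂ * (((N : ℝ) + 1)⁻¹) ^ q *
          (1 + ((N : ℝ) + 1) * |ρ x|) ^ max L₁ L₂ * ‖Complex.exp (lm N * Θ x)‖ := by
          refine add_le_add ((hb₁ N x).trans ?_) ((hb₂ N x).trans ?_) <;> gcongr
      _ = _ := by ring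
  | smul c W _ h =>
    obtain ⟨C, L, hC, hb⟩ := h
    refine ⟨‖c‖ * C, L, by positivity, fun N x => ?_⟩
    show ‖c * W N x‖ ≤ _
    rw [norm_mul]
    calc ‖c‖ * ‖W N x‖ ≤ ‖c‖ * (C * (((N : ℝ) + 1)⁻¹) ^ q * (1 + ((N : ℝ) + 1) * |ρ x|) ^ L *
        ‖Complex.exp (lm N * Θ x)‖) := by gcongr; exact hb N x
      _ = _ := by ring

theorem pd_gen {Θ r f : V n → ℂ} (hΘ : ContDiff ℝ ∞ Θ) (hr : ContDiff ℝ ∞ r)
    (hf : ContDiff ℝ ∞ f) (q l : ℕ) (a : Fin n) (N : ℕ) (x : V n) :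
    pd a (gen Θ r q l f N) x = lm N * gen Θ r q l (fun y => pd a Θ y * f y) N x +
      lm N * gen Θ r q (l - 1) (fun y => l * pd a r y * f y) N x + gen Θ r q l (pd a f) N x := by
  have hcr : ContDiff ℝ ∞ (fun y => lm N * r y) := contDiff_const.mul hr
  have h1 : pd a (gen Θ r q l f N) x = (lm N)⁻¹ ^ q *
      pd a (fun y => Complex.exp (lm N * Θ y) * ((lm N * r y) ^ l * f y)) x :=
    pd_cmul ((exp_contDiff hΘ _).mul ((hcr.pow l).mul hf)) _ a x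
  rw [h1, pd_mul (exp_contDiff hΘ _) ((hcr.pow l).mul hf), pd_mul (hcr.pow l) hf, pd_exp hΘ,
    pd_pow hcr, pd_cmul hr]
  simp only [gen]
  ring

/-- Derivatives lower the order by one. -/
theorem Mo_pd {S : Set (V n)} (hS : IsClosed S) {Θ r : V n → ℂ} (hΘ : ContDiff ℝ ∞ Θ)
    (hr : ContDiff ℝ ∞ r) (a : Fin n) {q : ℕ} {W : ℕ → V n → ℂ} (hW : W ∈ Mo Θ r S (q + 1)) :
    (fun N => pd a (W N)) ∈ Mo Θ r S q := by
  have key : ∀ {q : ℕ} {W : ℕ → V n → ℂ}, W ∈ Mo Θ r S q → ∀ N, ContDiff ℝ ∞ (W N) :=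
    fun hW N => (Mo_Sp hΘ hr hW N).1
  induction hW using Submodule.span_induction with
  | mem W hW =>
    obtain ⟨q', l, f, hq, hf, rfl⟩ := hW
    obtain ⟨q'', rfl⟩ : ∃ q'', q' = q'' + 1 := ⟨q' - 1, by omega⟩
    have e : (fun N => pd a (gen Θ r (q'' + 1) l f N)) = gen Θ r q'' l (fun y => pd a Θ y * f y) +
        gen Θ r q'' (l - 1) (fun y => l * pd a r y * f y) + gen Θ r (q'' + 1) l (pd a f) := by
      funext N x
      rw [pd_gen hΘ hr hf.1]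
      simp only [Pi.add_apply, gen]
      have hc := lm_ne N
      have hu : lm N * (lm N)⁻¹ = 1 := mul_inv_cancel₀ hc
      linear_combination ((lm N)⁻¹ ^ q'' * Complex.exp (lm N * Θ x) *
        ((lm N * r x) ^ l * (pd a Θ x * f x) + (lm N * r x) ^ (l - 1) * (l * pd a r x * f x))) * hu
    rw [e]
    refine Submodule.add_mem _ (Submodule.add_mem _ ?_ ?_) ?_
    · exact gen_mem (by omega) (Sp_mul_left (contDiff_pd hΘ a) hf)
    · exact gen_mem (by omega) (Sp_mul_left (contDiff_const.mul (contDiff_pd hr a)) hf)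
    · exact gen_mem (by omega) (Sp_pd hS hf a)
  | zero =>
    have : (fun N => pd a ((0 : ℕ → V n → ℂ) N)) = 0 := by
      funext N x
      unfold pd
      show (fderiv ℝ (fun _ : V n => (0 : ℂ)) x) (Pi.single a 1) = 0
      simp
    rw [this]
    exact Submodule.zero_mem _
  | add W₁ W₂ m₁ m₂ h₁ h₂ =>
    have : (fun N => pd a ((W₁ + W₂) N)) = (fun N => pd a (W₁ N)) + fun N => pd a (W₂ N) := by
      funext N x
      show pd a (fun y => W₁ N y + W₂ N y) x = pd a (W₁ N) x + pd a (W₂ N) x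
      unfold pd
      rw [fderiv_fun_add ((key m₁ N).differentiable (by simp) x)
        ((key m₂ N).differentiable (by simp) x)]
      rfl
    rw [this]
    exact Submodule.add_mem _ h₁ h₂
  | smul c W m h =>
    have : (fun N => pd a ((c • W) N)) = c • fun N => pd a (W N) := by
      funext N x
      exact pd_cmul (key m N) c a x
    rw [this]
    exact Submodule.smul_mem _ _ h

/-- The quasimodes with pointwise bounds. -/
theorem quasi_bd {s : MF n} (hs : SmM s) (hsym : ∀ x, (s x).IsSymm) {S : Set (V n)}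
    (hS : IsCompact S) {Θ e g : V n → ℂ} {ρ : V n → ℝ} (h : Ph s Θ (cx ρ) S e g) {χ : V n → ℂ}
    (hχ : Sp S χ) (K : ℕ) : ∃ (U : ℕ → V n → ℂ) (C : ℝ) (L : ℕ), 0 ≤ C ∧
      (∀ N, ContDiff ℝ ∞ (U N)) ∧ (∀ N, ∀ x ∉ S, U N x = 0) ∧
      (∀ N ≥ 1, ∀ a x, ‖pd a (U N) x - N * pd a Θ x * Complex.exp (N * Θ x) * χ x‖ ≤
        C * (1 + N * |ρ x|) ^ L * ‖Complex.exp (N * Θ x)‖) ∧
      ∀ N ≥ 1, ∀ x, ‖dv s (U N) x‖ ≤
        C * ((N : ℝ)⁻¹) ^ K * (1 + N * |ρ x|) ^ L * ‖Complex.exp (N * Θ x)‖ := by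
  obtain ⟨W, hW1, hW0, hWL⟩ := quasi hs hsym hS.isClosed h hχ (K + 1)
  have hsm : ∀ {q : ℕ} {W : ℕ → V n → ℂ}, W ∈ Mo Θ (cx ρ) S q → ∀ N, Sp S (W N) :=
    fun hW N => Mo_Sp h.hΘ h.hr hW N
  -- the remainder of the gradient
  have hR : ∀ a, (fun N x => pd a (W N) x - lm N * pd a Θ x * Complex.exp (lm N * Θ x) * χ x) ∈
      Mo Θ (cx ρ) S 0 := by
    intro a
    have e : (fun N x => pd a (W N) x - lm N * pd a Θ x * Complex.exp (lm N * Θ x) * χ x) =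
        (fun N => pd a ((W - gen Θ (cx ρ) 0 0 χ) N)) + gen Θ (cx ρ) 0 0 (pd a χ) := by
      funext N x
      have h1 : pd a ((W - gen Θ (cx ρ) 0 0 χ) N) x = pd a (W N) x - pd a (gen Θ (cx ρ) 0 0 χ N) x := by
        show pd a (fun y => W N y - gen Θ (cx ρ) 0 0 χ N y) x = _
        unfold pd
        rw [fderiv_fun_sub ((hsm hW0 N).1.differentiable (by simp) x)
          ((gen_contDiff h.hΘ h.hr 0 0 hχ.1 N).differentiable (by simp) x)]
        rfl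
      show _ = pd a ((W - gen Θ (cx ρ) 0 0 χ) N) x + gen Θ (cx ρ) 0 0 (pd a χ) N x
      rw [h1, pd_gen h.hΘ h.hr hχ.1]
      simp only [gen]
      simp
      ring
    rw [e]
    exact Submodule.add_mem _ (Mo_pd hS.isClosed h.hΘ h.hr a hW1) (gen_mem le_rfl (Sp_pd hS.isClosed hχ a))
  choose C₁ L₁ hC₁ hb₁ using fun a => Mo_bd hS (hR a)
  obtain ⟨C₂, L₂, hC₂, hb₂⟩ := Mo_bd hS hWL
  set C : ℝ := (∑ a, C₁ a) + C₂ with hC
  set L : ℕ := (∑ a, L₁ a) + L₂ with hL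
  have hC0 : 0 ≤ C := add_nonneg (Finset.sum_nonneg fun a _ => hC₁ a) hC₂
  have hC₁C : ∀ a, C₁ a ≤ C := fun a => by
    have := Finset.single_le_sum (f := C₁) (fun b _ => hC₁ b) (Finset.mem_univ a)
    linarith
  have hL₁L : ∀ a, L₁ a ≤ L := fun a => by
    have := Finset.single_le_sum (f := L₁) (fun b _ => Nat.zero_le _) (Finset.mem_univ a)
    omega
  have hC₂C : C₂ ≤ C := by
    have := Finset.sum_nonneg (s := Finset.univ) fun a _ => hC₁ a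
    linarith
  have hL₂L : L₂ ≤ L := by omega
  refine ⟨fun N => W (N - 1), C, L, hC0, fun N => (hsm hW0 _).1, fun N => (hsm hW0 _).2, ?_, ?_⟩
  · intro N hN a x
    obtain ⟨M, rfl⟩ : ∃ M, N = M + 1 := ⟨N - 1, by omega⟩
    have h1 := hb₁ a M x
    have h2 : ((M + 1 : ℕ) : ℂ) = lm M := by unfold lm; push_cast; rfl
    rw [h2]
    simp only [Nat.add_sub_cancel]
    have h3 : (1 : ℝ) ≤ 1 + ((M : ℝ) + 1) * |ρ x| := by
      have : 0 ≤ ((M : ℝ) + 1) * |ρ x| := by positivity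
      linarith
    refine h1.trans ?_
    push_cast
    rw [pow_zero, mul_one]
    have h4 := pow_le_pow_right₀ h3 (hL₁L a)
    have h5 := hC₁C a
    have h6 := hC₁ a
    gcongr
  · intro N hN x
    obtain ⟨M, rfl⟩ : ∃ M, N = M + 1 := ⟨N - 1, by omega⟩
    have h1 := hb₂ M x
    have h2 : ((M + 1 : ℕ) : ℂ) = lm M := by unfold lm; push_cast; rfl
    rw [h2]
    simp only [Nat.add_sub_cancel]
    have h3 : (1 : ℝ) ≤ 1 + ((M : ℝ) + 1) * |ρ x| := by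
      have : 0 ≤ ((M : ℝ) + 1) * |ρ x| := by positivity
      linarith
    have h4 : dv s (W M) x = lm M ^ 2 * Lo s W M x := by
      unfold Lo
      have := lm_ne M
      field_simp
    have h5 : (1 + ((M : ℝ) + 1) * |ρ x|) ^ L₂ ≤ (1 + ((M : ℝ) + 1) * |ρ x|) ^ L :=
      pow_le_pow_right₀ h3 hL₂L
    have hM : ((M : ℝ) + 1) ≠ 0 := by positivity
    rw [h4, norm_mul, norm_pow, norm_lm]
    push_cast
    calc ((M : ℝ) + 1) ^ 2 * ‖Lo s W M x‖ ≤ ((M : ℝ) + 1) ^ 2 * (C₂ * (((M : ℝ) + 1)⁻¹) ^ (K + 1 + 1) *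
        (1 + ((M : ℝ) + 1) * |ρ x|) ^ L₂ * ‖Complex.exp (lm M * Θ x)‖) := by gcongr
      _ = C₂ * (((M : ℝ) + 1)⁻¹) ^ K * (1 + ((M : ℝ) + 1) * |ρ x|) ^ L₂ *
          ‖Complex.exp (lm M * Θ x)‖ := by
          rw [show K + 1 + 1 = K + 2 from rfl, pow_add]
          field_simp
      _ ≤ _ := by gcongr

end Vale.Agent.P088.R2.H381
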