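import Vale.Agent.P088.R2.H381.QDef
import Vale.Agent.P088.H705.SV

/-!
# P088, boundary quasimodes: `div (s ∇ (e^{λΘ} (λρ)^l f))`
-/

open MeasureTheory Set Filter Topology
open scoped ContDiff Matrix

noncomputable section

namespace Vale.Agent.P088.R2.H381

open Vale.Agent.P088.LR Vale.Agent.P088.LR.B Vale.Agent.P088.LR.H705

variable {n : ℕ}

theorem cx_contDiff {ρ : V n → ℝ} (h : ContDiff ℝ ∞ ρ) : ContDiff ℝ ∞ (cx ρ) :=
  Complex.ofRealCLM.contDiff.comp h

theorem pd_exp {Θ : V n → ℂ} (hΘ : ContDiff ℝ ∞ Θ) (c : ℂ) (i : Fin n) (x : V n) :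
    pd i (fun y => Complex.exp (c * Θ y)) x = c * pd i Θ x * Complex.exp (c * Θ x) := by
  unfold pd
  have h1 : HasFDerivAt (fun y => c * Θ y) (c • fderiv ℝ Θ x) x :=
    ((hΘ.differentiable (by simp)) x).hasFDerivAt.const_mul c
  rw [h1.cexp.fderiv]
  simp
  ring

theorem exp_contDiff {Θ : V n → ℂ} (hΘ : ContDiff ℝ ∞ Θ) (c : ℂ) :
    ContDiff ℝ ∞ (fun y => Complex.exp (c * Θ y)) := (contDiff_const.mul hΘ).cexp

theorem pd_pow {f : V n → ℂ} (hf : ContDiff ℝ ∞ f) (l : ℕ) (i : Fin n) (x : V n) :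
    pd i (fun y => f y ^ l) x = l * f x ^ (l - 1) * pd i f x := by
  unfold pd
  have h1 := ((hf.differentiable (by simp)) x).hasFDerivAt.pow l
  rw [h1.fderiv]
  simp

theorem pd_cmul {f : V n → ℂ} (hf : ContDiff ℝ ∞ f) (c : ℂ) (i : Fin n) (x : V n) :
    pd i (fun y => c * f y) x = c * pd i f x := by
  unfold pd
  rw [(((hf.differentiable (by simp)) x).hasFDerivAt.const_mul c).fderiv]
  simp

theorem B_exp {Θ : V n → ℂ} (hΘ : ContDiff ℝ ∞ Θ) (s : MF n) (c : ℂ) (v : V n → ℂ) (x : V n) :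
    B s (fun y => Complex.exp (c * Θ y)) v x = c * Complex.exp (c * Θ x) * B s Θ v x := by
  unfold B
  rw [Finset.mul_sum]
  refine Finset.sum_congr rfl fun i _ => ?_
  rw [Finset.mul_sum]
  refine Finset.sum_congr rfl fun j _ => ?_
  rw [pd_exp hΘ]
  ring

theorem B_pow {f : V n → ℂ} (hf : ContDiff ℝ ∞ f) (s : MF n) (l : ℕ) (v : V n → ℂ) (x : V n) :
    B s (fun y => f y ^ l) v x = l * f x ^ (l - 1) * B s f v x := by
  unfold B
  rw [Finset.mul_sum]
  refine Finset.sum_congr rfl fun i _ => ?_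
  rw [Finset.mul_sum]
  refine Finset.sum_congr rfl fun j _ => ?_
  rw [pd_pow hf]
  ring

theorem B_cmul {f : V n → ℂ} (hf : ContDiff ℝ ∞ f) (s : MF n) (c : ℂ) (v : V n → ℂ) (x : V n) :
    B s (fun y => c * f y) v x = c * B s f v x := by
  unfold B
  rw [Finset.mul_sum]
  refine Finset.sum_congr rfl fun i _ => ?_
  rw [Finset.mul_sum]
  refine Finset.sum_congr rfl fun j _ => ?_
  rw [pd_cmul hf]
  ring

/-- `dv` of a composition with derivative of gradient type. -/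
theorem dv_of_grad {s : MF n} (hs : SmM s) {f g u : V n → ℂ} (hg : ContDiff ℝ ∞ g)
    (hu : ContDiff ℝ ∞ u) (h : ∀ i x, pd i f x = g x * pd i u x) (x : V n) :
    dv s f x = B s g u x + g x * dv s u x := by
  rw [← div_mul hs hg hu]
  unfold dv
  refine Finset.sum_congr rfl fun i _ => ?_
  have : (fun y => ∑ j, (s y i j : ℂ) * pd j f y) = fun y => g y * flx s u i y := by
    funext y
    unfold flx
    rw [Finset.mul_sum]
    refine Finset.sum_congr rfl fun j _ => ?_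
    rw [h]
    ring
  rw [this]

theorem dv_exp {s : MF n} (hs : SmM s) {Θ : V n → ℂ} (hΘ : ContDiff ℝ ∞ Θ) (c : ℂ) (x : V n) :
    dv s (fun y => Complex.exp (c * Θ y)) x =
      Complex.exp (c * Θ x) * (c * dv s Θ x + c ^ 2 * B s Θ Θ x) := by
  have h1 : ContDiff ℝ ∞ (fun y => c * Complex.exp (c * Θ y)) := contDiff_const.mul (exp_contDiff hΘ c)
  rw [dv_of_grad hs (g := fun y => c * Complex.exp (c * Θ y)) h1 hΘ]
  · rw [B_cmul (exp_contDiff hΘ c), B_exp hΘ]
    ring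
  · intro i x
    rw [pd_exp hΘ]
    ring

theorem dv_pow {s : MF n} (hs : SmM s) {f : V n → ℂ} (hf : ContDiff ℝ ∞ f) (l : ℕ) (x : V n) :
    dv s (fun y => f y ^ l) x =
      l * f x ^ (l - 1) * dv s f x + l * (l - 1 : ℕ) * f x ^ (l - 2) * B s f f x := by
  have h1 : ContDiff ℝ ∞ (fun y => (l : ℂ) * f y ^ (l - 1)) := contDiff_const.mul (hf.pow _)
  rw [dv_of_grad hs (g := fun y => (l : ℂ) * f y ^ (l - 1)) h1 hf]
  · rw [B_cmul (hf.pow _), B_pow hf]
    rw [show l - 1 - 1 = l - 2 from rfl]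
    ring
  · intro i x
    rw [pd_pow hf]

theorem dv_cmul {s : MF n} (hs : SmM s) {f : V n → ℂ} (hf : ContDiff ℝ ∞ f) (c : ℂ) (x : V n) :
    dv s (fun y => c * f y) x = c * dv s f x := by
  rw [dv_of_grad hs (g := fun _ => c) contDiff_const hf fun i x => pd_cmul hf c i x]
  have : B s (fun _ : V n => c) f x = 0 := by
    unfold B
    refine Finset.sum_eq_zero fun i _ => Finset.sum_eq_zero fun j _ => ?_
    have : pd i (fun _ : V n => c) x = 0 := by unfold pd; simp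
    rw [this]
    ring
  rw [this, zero_add]

/-- The main formula. -/
theorem dv_gen {s : MF n} (hs : SmM s) (hsym : ∀ x, (s x).IsSymm) {Θ r f : V n → ℂ}
    (hΘ : ContDiff ℝ ∞ Θ) (hr : ContDiff ℝ ∞ r) (hf : ContDiff ℝ ∞ f) (c : ℂ) (l : ℕ) (x : V n) :
    dv s (fun y => Complex.exp (c * Θ y) * ((c * r y) ^ l * f y)) x = Complex.exp (c * Θ x) *
      (c ^ 2 * ((c * r x) ^ l * (B s Θ Θ x * f x) + (c * r x) ^ (l - 1) * (2 * l * B s Θ r x * f x) +
        (c * r x) ^ (l - 2) * (l * (l - 1 : ℕ) * B s r r x * f x)) +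
      c * ((c * r x) ^ l * (dv s Θ x * f x + 2 * B s Θ f x) +
        (c * r x) ^ (l - 1) * (l * (dv s r x * f x + 2 * B s r f x))) +
      (c * r x) ^ l * dv s f x) := by
  have hcr : ContDiff ℝ ∞ (fun y => c * r y) := contDiff_const.mul hr
  have hT : ContDiff ℝ ∞ (fun y => (c * r y) ^ l) := hcr.pow l
  have e1 : B s Θ (fun y => (c * r y) ^ l) x = l * (c * r x) ^ (l - 1) * (c * B s Θ r x) := by
    rw [B_symm hsym Θ, B_pow hcr, B_cmul hr, B_symm hsym r Θ]
  have e2 : B s (fun y => c * r y) (fun y => c * r y) x = c * (c * B s r r x) := by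
    rw [B_cmul hr, B_symm hsym r, B_cmul hr]
  have e3 : B s (fun y => (c * r y) ^ l) f x = l * (c * r x) ^ (l - 1) * (c * B s r f x) := by
    rw [B_pow hcr, B_cmul hr]
  rw [dv_mul hs hsym (exp_contDiff hΘ c) (hT.mul hf), dv_exp hs hΘ, dv_mul hs hsym hT hf,
    dv_pow hs hcr, dv_cmul hs hr, B_exp hΘ, B_mul_right s hT hf, e1, e2, e3]
  ring

end Vale.Agent.P088.R2.H381
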