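import Vale.Agent.P088.R2.H381.QEst

/-!
# P088, boundary quasimodes: one quasimode for every `ε`
-/

open MeasureTheory Set Filter Topology
open scoped ContDiff Matrix ComplexConjugate

noncomputable section

namespace Vale.Agent.P088.R2.H381

open Vale.Agent.P088.LR Vale.Agent.P088.LR.B

variable {n : ℕ}

theorem pdc_continuous {f : V n → ℂ} (hf : ContDiff ℝ ∞ f) (i : Fin n) : Continuous (pd i f) := by
  unfold pd
  exact (hf.continuous_fderiv (by simp)).clm_apply continuous_const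

theorem dv_continuous {s : MF n} (hs : SmM s) {f : V n → ℂ} (hf : ContDiff ℝ ∞ f) :
    Continuous (dv s f) := by
  unfold dv
  refine continuous_finsetSum _ fun i _ => pdc_continuous ?_ i
  refine ContDiff.sum fun j _ => ?_
  have h1 : ContDiff ℝ ∞ (pd j f) := by
    unfold pd
    exact (hf.fderiv_right (m := ∞) (by simp)).clm_apply contDiff_const
  exact (Complex.ofRealCLM.contDiff.comp (hs i j)).mul h1

theorem zero_off {S : Set (V n)} (hS : IsClosed S) {f : V n → ℂ} (hf : ∀ x ∉ S, f x = 0) (i : Fin n) :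
    ∀ x ∉ S, pd i f x = 0 := by
  intro x hx
  have h1 : f =ᶠ[𝓝 x] fun _ => 0 := by
    filter_upwards [hS.isOpen_compl.mem_nhds hx] with y hy
    exact hf y hy
  unfold pd
  rw [h1.fderiv_eq]
  simp

theorem dv_zero_off {s : MF n} {S : Set (V n)} (hS : IsClosed S) {f : V n → ℂ}
    (hf : ∀ x ∉ S, f x = 0) : ∀ x ∉ S, dv s f x = 0 := by
  intro x hx
  unfold dv
  refine Finset.sum_eq_zero fun i _ => zero_off hS (fun y hy => ?_) i x hx
  refine Finset.sum_eq_zero fun j _ => ?_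
  rw [zero_off hS hf j y hy, mul_zero]

theorem int_S {F : Type*} [NormedAddCommGroup F] [NormedSpace ℝ F] {ρ : V n → ℝ} (hρ : Continuous ρ)
    {p : V n} {r : ℝ} {f : V n → F} (hf : ∀ x ∉ Metric.closedBall p r, f x = 0) :
    ∫ x in Om ρ, f x = ∫ x in Om ρ ∩ Metric.closedBall p r, f x :=
  (setIntegral_eq_of_subset_of_forall_sdiff_eq_zero (Om_meas hρ) inter_subset_left
    fun x hx => hf x fun h => hx.2 ⟨hx.1, h⟩)

/-- pointwise difference of products -/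
theorem diff_pt {A B a b : ℂ} {C T N P E : ℝ} (hC : 0 ≤ C) (hT : 0 ≤ T) (hN : 1 ≤ N) (hP : 1 ≤ P)
    (hE : 0 ≤ E) (h1 : ‖A - a‖ ≤ C * P * E) (h2 : ‖B - b‖ ≤ C * P * E) (h3 : ‖a‖ ≤ N * T * E)
    (h4 : ‖b‖ ≤ N * T * E) :
    ‖A * conj B - a * conj b‖ ≤ (2 * C * T + C ^ 2) * N * (P ^ 2 * E ^ 2) := by
  have hB : ‖B‖ ≤ N * T * E + C * P * E := by
    calc ‖B‖ = ‖b + (B - b)‖ := by congr 1; ring
      _ ≤ ‖b‖ + ‖B - b‖ := norm_add_le _ _
      _ ≤ _ := add_le_add h4 h2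
  have e1 : A * conj B - a * conj b = (A - a) * conj B + a * conj (B - b) := by
    rw [map_sub]; ring
  rw [e1]
  calc ‖(A - a) * conj B + a * conj (B - b)‖
      ≤ ‖(A - a) * conj B‖ + ‖a * conj (B - b)‖ := norm_add_le _ _
    _ = ‖A - a‖ * ‖B‖ + ‖a‖ * ‖B - b‖ := by
        rw [norm_mul, norm_mul, RCLike.norm_conj, RCLike.norm_conj]
    _ ≤ (C * P * E) * (N * T * E + C * P * E) + (N * T * E) * (C * P * E) := by
        gcongr
    _ = (2 * C * T) * N * (P * E ^ 2) + C ^ 2 * 1 * (P ^ 2 * E ^ 2) := by ring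
    _ ≤ (2 * C * T) * N * (P ^ 2 * E ^ 2) + C ^ 2 * N * (P ^ 2 * E ^ 2) := by
        have : P ≤ P ^ 2 := by nlinarith
        gcongr
    _ = _ := by ring

/-- The first difference. -/
theorem diff1 {ρ : V n → ℝ} (hD : Dom ρ) {p : V n} {r : ℝ} {A B a b : V n → ℂ} (hA : Continuous A)
    (hB : Continuous B) (ha : Continuous a) (hb : Continuous b)
    (hA0 : ∀ x ∉ Metric.closedBall p r, A x = 0) (ha0 : ∀ x ∉ Metric.closedBall p r, a x = 0)
    {E : V n → ℝ} (hE : Continuous E) (hE0 : ∀ x, 0 ≤ E x) {C T N : ℝ} (hC : 0 ≤ C) (hT : 0 ≤ T)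
    (hN : 1 ≤ N) (L j : ℕ) (h1 : ∀ x, ‖A x - a x‖ ≤ C * (1 + N * |ρ x|) ^ L * E x)
    (h2 : ∀ x, ‖B x - b x‖ ≤ C * (1 + N * |ρ x|) ^ L * E x)
    (h3 : ∀ x ∈ Metric.closedBall p r, ‖a x‖ ≤ N * T * E x)
    (h4 : ∀ x ∈ Metric.closedBall p r, ‖b x‖ ≤ N * T * E x) :
    ‖(∫ x in Om ρ, ((ρ x ^ j : ℝ) : ℂ) * (A x * conj (B x))) -
        ∫ x in Om ρ, ((ρ x ^ j : ℝ) : ℂ) * (a x * conj (b x))‖ ≤
      ((2 * C * T + C ^ 2) * N * (N⁻¹) ^ j) *
        ∫ x in Om ρ ∩ Metric.closedBall p r, (1 + N * ρ x) ^ (2 * L + j) * E x ^ 2 := by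
  have hρc := hD.sm.continuous
  have hρj : Continuous fun x => ((ρ x ^ j : ℝ) : ℂ) :=
    Complex.continuous_ofReal.comp (hρc.pow j)
  have hf1 : Continuous fun x => ((ρ x ^ j : ℝ) : ℂ) * (A x * conj (B x)) :=
    hρj.mul (hA.mul (Complex.continuous_conj.comp hB))
  have hf2 : Continuous fun x => ((ρ x ^ j : ℝ) : ℂ) * (a x * conj (b x)) :=
    hρj.mul (ha.mul (Complex.continuous_conj.comp hb))
  have hcI : Continuous fun x => (1 + N * ρ x) ^ (2 * L + j) * E x ^ 2 := by fun_prop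
  have hmeas : MeasurableSet (Om ρ ∩ Metric.closedBall p r) :=
    (Om_meas hρc).inter Metric.isClosed_closedBall.measurableSet
  rw [← integral_sub (int_Om hD hf1) (int_Om hD hf2)]
  rw [int_S hρc (p := p) (r := r) (fun x hx => by rw [hA0 x hx, ha0 x hx]; simp)]
  refine (norm_integral_le_integral_norm _).trans ?_
  rw [← integral_const_mul]
  refine setIntegral_mono_on (int_on (hf1.sub hf2).norm _) (int_on (continuous_const.mul hcI) _)
    hmeas fun x hx => ?_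
  have hx0 : 0 < ρ x := hx.1
  have hN0 : 0 < N := by linarith
  have hP : 1 ≤ 1 + N * ρ x := by
    have : 0 ≤ N * ρ x := by positivity
    linarith
  have ha1 := h1 x
  have hb1 := h2 x
  rw [abs_of_pos hx0] at ha1 hb1
  have hρp : ρ x ^ j ≤ (N⁻¹) ^ j * (1 + N * ρ x) ^ j := by
    rw [← mul_pow]
    refine pow_le_pow_left₀ hx0.le ?_ j
    rw [mul_add, inv_mul_cancel_left₀ hN0.ne']
    have : 0 ≤ N⁻¹ * 1 := by positivity
    linarith
  have hdiff := diff_pt hC hT hN (one_le_pow₀ hP (n := L)) (hE0 x) ha1 hb1 (h3 x hx.2) (h4 x hx.2)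
  have e2 : ((ρ x ^ j : ℝ) : ℂ) * (A x * conj (B x)) - ((ρ x ^ j : ℝ) : ℂ) * (a x * conj (b x)) =
      ((ρ x ^ j : ℝ) : ℂ) * (A x * conj (B x) - a x * conj (b x)) := by ring
  rw [e2, norm_mul, Complex.norm_real, Real.norm_eq_abs, abs_of_nonneg (by positivity)]
  calc ρ x ^ j * ‖A x * conj (B x) - a x * conj (b x)‖
      ≤ ((N⁻¹) ^ j * (1 + N * ρ x) ^ j) *
        ((2 * C * T + C ^ 2) * N * (((1 + N * ρ x) ^ L) ^ 2 * E x ^ 2)) := by
        gcongr
    _ = _ := by ring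

/-- The second difference. -/
theorem diff2 {ρ : V n → ℝ} (hD : Dom ρ) {p : V n} {r : ℝ} {D : V n → ℂ} (hDc : Continuous D)
    {w : V n → ℝ} (hw : Continuous w) (hw0 : ∀ x ∈ Om ρ, 0 ≤ w x)
    (hwS : ∀ x ∉ Metric.closedBall p r, w x = 0) (d : ℂ) {ε M : ℝ} (hM : 0 ≤ M)
    (h : ∀ x ∈ Metric.closedBall p r, ‖D x - d‖ ≤ ε) :
    ‖(∫ x in Om ρ, ((w x : ℝ) : ℂ) * ((M : ℂ) * D x)) -
        (((M * ∫ x in Om ρ, w x : ℝ)) : ℂ) * d‖ ≤ (M * ∫ x in Om ρ, w x) * ε := by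
  have hwc : Continuous fun x => ((w x : ℝ) : ℂ) := Complex.continuous_ofReal.comp hw
  have e1 : (((M * ∫ x in Om ρ, w x : ℝ)) : ℂ) * d = ∫ x in Om ρ, ((w x : ℝ) : ℂ) * ((M : ℂ) * d) := by
    rw [integral_mul_const, integral_complex_ofReal]
    push_cast
    ring
  have hi1 : IntegrableOn (fun x => ((w x : ℝ) : ℂ) * ((M : ℂ) * D x)) (Om ρ) :=
    int_Om hD (hwc.mul (continuous_const.mul hDc))
  have hi2 : IntegrableOn (fun x => ((w x : ℝ) : ℂ) * ((M : ℂ) * d)) (Om ρ) :=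
    int_Om hD (hwc.mul continuous_const)
  rw [e1, ← integral_sub hi1 hi2]
  refine (norm_integral_le_integral_norm _).trans ?_
  have e2 : (M * ∫ x in Om ρ, w x) * ε = ∫ x in Om ρ, w x * (M * ε) := by
    rw [integral_mul_const]
    ring
  rw [e2]
  refine setIntegral_mono_on (int_Om hD (((hwc.mul (continuous_const.mul hDc)).sub
    (hwc.mul continuous_const)).norm)) (int_Om hD (hw.mul continuous_const))
    (Om_meas hD.sm.continuous) fun x hx => ?_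
  have e3 : ((w x : ℝ) : ℂ) * ((M : ℂ) * D x) - ((w x : ℝ) : ℂ) * ((M : ℂ) * d) =
      ((w x : ℝ) : ℂ) * ((M : ℂ) * (D x - d)) := by ring
  rw [e3, norm_mul, norm_mul, Complex.norm_real, Complex.norm_real, Real.norm_eq_abs,
    Real.norm_eq_abs, abs_of_nonneg (hw0 x hx), abs_of_nonneg hM]
  by_cases hxS : x ∈ Metric.closedBall p r
  · have h3 := h x hxS
    have h4 := hw0 x hx
    gcongr
  · rw [hwS x hxS]
    simp

theorem concl {Z ε : ℝ} (hZ : 0 < Z) {X Y d : ℂ} (h1 : ‖X - Y‖ ≤ Z * (ε / 2))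
    (h2 : ‖Y - (Z : ℂ) * d‖ ≤ Z * (ε / 2)) : ‖(Z : ℂ)⁻¹ * X - d‖ ≤ ε := by
  have hZc : (Z : ℂ) ≠ 0 := by exact_mod_cast hZ.ne'
  have e7 : (Z : ℂ)⁻¹ * X - d = (Z : ℂ)⁻¹ * ((X - Y) + (Y - (Z : ℂ) * d)) := by
    field_simp
    ring
  rw [e7, norm_mul, norm_inv, Complex.norm_real, Real.norm_eq_abs, abs_of_pos hZ,
    inv_mul_le_iff₀ hZ]
  refine (norm_add_le _ _).trans ?_
  linarith

/-- The conclusion of `core`. -/
def Cor (ρ : V n → ℝ) (s : MF n) (p : V n) (ζ : Fin n → ℂ) (j : ℕ) (ε : ℝ) (U : V n → ℂ)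
    (Z : ℝ) : Prop :=
  ContDiff ℝ ∞ U ∧ 0 < Z ∧ (∀ x ∉ Metric.closedBall p ε, U x = 0) ∧
    Z⁻¹ * ∫ x in Om ρ, ‖dv s U x‖ ^ 2 ≤ ε ∧
    ∀ a b, ‖((Z : ℝ) : ℂ)⁻¹ * (∫ x in Om ρ, ((ρ x ^ j : ℝ) : ℂ) * (pd a U x * conj (pd b U x))) -
      ζ a * conj (ζ b)‖ ≤ ε

theorem core {ρ : V n → ℝ} (hD : Dom ρ) {s : MF n} (hs : SmM s) {p : V n} (hp : ρ p = 0)
    {Θ : V n → ℂ} (hΘ : ContDiff ℝ ∞ Θ) {k : V n → ℝ} (hk : Continuous k) (hk0 : ∀ x, 0 < k x)
    (hre : ∀ x, (Θ x).re = -(ρ x * k x)) {G : Set (V n)} (hG : IsOpen G) (hpG : p ∈ G)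
    (hU : ∀ S, IsCompact S → S ⊆ G → ∀ χ : V n → ℂ, ContDiff ℝ ∞ χ → (∀ x ∉ S, χ x = 0) →
      ∀ K : ℕ, ∃ (U : ℕ → V n → ℂ) (C : ℝ) (L : ℕ), 0 ≤ C ∧ (∀ N, ContDiff ℝ ∞ (U N)) ∧
        (∀ N, ∀ x ∉ S, U N x = 0) ∧
        (∀ N ≥ 1, ∀ a x, ‖pd a (U N) x - N * pd a Θ x * Complex.exp (N * Θ x) * χ x‖ ≤
          C * (1 + N * |ρ x|) ^ L * ‖Complex.exp (N * Θ x)‖) ∧
        ∀ N ≥ 1, ∀ x, ‖dv s (U N) x‖ ≤
          C * ((N : ℝ)⁻¹) ^ K * (1 + N * |ρ x|) ^ L * ‖Complex.exp (N * Θ x)‖)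
    (j : ℕ) {ε : ℝ} (hε : 0 < ε) :
    ∃ (U : V n → ℂ) (Z : ℝ), Cor ρ s p (fun a => pd a Θ p) j ε U Z := by
  have hρ := hD.sm
  have hρc := hρ.continuous
  obtain ⟨r₀, hr₀, hup⟩ := int_up hρ (hD.nz p hp) hΘ.continuous hk hk0 hre
  -- the radius
  have hcont : ∀ a b, Continuous fun x => pd a Θ x * conj (pd b Θ x) := fun a b =>
    (pdc_continuous hΘ a).mul (Complex.continuous_conj.comp (pdc_continuous hΘ b))
  have hev : ∀ᶠ x in 𝓝 p, x ∈ G ∧ ∀ a b : Fin n,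
      ‖pd a Θ x * conj (pd b Θ x) - pd a Θ p * conj (pd b Θ p)‖ < ε / 2 := by
    have hGn : ∀ᶠ x in 𝓝 p, x ∈ G := hG.mem_nhds hpG
    refine hGn.and (eventually_all.2 fun a => eventually_all.2 fun b => ?_)
    have h1 : Continuous fun x => ‖pd a Θ x * conj (pd b Θ x) - pd a Θ p * conj (pd b Θ p)‖ :=
      ((hcont a b).sub continuous_const).norm
    exact h1.continuousAt.eventually (gt_mem_nhds (by simpa using by positivity))
  obtain ⟨r₁, hr₁, hr₁'⟩ := Metric.eventually_nhds_iff_ball.1 hev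
  set r : ℝ := min (min r₀ ε) (r₁ / 2) with hrd
  have hr : 0 < r := lt_min (lt_min hr₀ hε) (by positivity)
  have hrr₀ : r ≤ r₀ := (min_le_left _ _).trans (min_le_left _ _)
  have hrε : r ≤ ε := (min_le_left _ _).trans (min_le_right _ _)
  have hrr₁ : r < r₁ := (min_le_right _ _).trans_lt (by linarith)
  have hSb : ∀ x ∈ Metric.closedBall p r, x ∈ Metric.ball p r₁ := fun x hx =>
    Metric.closedBall_subset_ball hrr₁ hx
  -- the cut-off
  let η : ContDiffBump p := ⟨r / 2, r, by positivity, by linarith⟩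
  set χ : V n → ℂ := fun x => ((η x : ℝ) : ℂ) with hχd
  have hχ : ContDiff ℝ ∞ χ := Complex.ofRealCLM.contDiff.comp η.contDiff
  have hχ0 : ∀ x ∉ Metric.closedBall p r, χ x = 0 := by
    intro x hx
    have : η x = 0 := by
      by_contra h
      have h2 : x ∈ Metric.ball p r := (η.support_eq ▸ (Function.mem_support.2 h))
      exact hx (Metric.ball_subset_closedBall h2)
    simp [hχd, this]
  have hχ1 : ∀ x ∈ Metric.closedBall p (r / 2), χ x = 1 := by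
    intro x hx
    have : η x = 1 := η.one_of_mem_closedBall hx
    simp [hχd, this]
  have hχn : ∀ x, ‖χ x‖ ≤ 1 := by
    intro x
    simp only [hχd, Complex.norm_real, Real.norm_eq_abs]
    rw [abs_of_nonneg η.nonneg]
    exact η.le_one
  obtain ⟨U, C, L, hC, hUs, hU0, hUp, hUd⟩ := hU (Metric.closedBall p r) (isCompact_closedBall p r)
    (fun x hx => (hr₁' x (hSb x hx)).1) χ hχ hχ0 j
  -- bound of `∇Θ`
  obtain ⟨T, hT0, hT⟩ : ∃ T, 0 ≤ T ∧ ∀ x ∈ Metric.closedBall p r, ∀ a, ‖pd a Θ x‖ ≤ T := by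
    choose T hT using fun a => (isCompact_closedBall p r).exists_bound_of_continuousOn
      (pdc_continuous hΘ a).continuousOn
    refine ⟨∑ a, |T a|, Finset.sum_nonneg fun a _ => abs_nonneg _, fun x hx a => ?_⟩
    exact ((hT a x hx).trans (le_abs_self _)).trans
      (Finset.single_le_sum (f := fun a => |T a|) (fun b _ => abs_nonneg _) (Finset.mem_univ a))
  obtain ⟨C₃, hC₃, hup3⟩ := hup r hr hrr₀ (2 * L + j)
  obtain ⟨c, hc, M, hlow⟩ := int_low hD hp hΘ.continuous hk hk0 hre (half_pos hr) hχ.continuous hχ1 j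
  -- choice of `N`
  set Q : ℝ := C ^ 2 * C₃ / c + (2 * C * T + C ^ 2) * C₃ / c with hQ
  have hQ0 : 0 ≤ Q := by positivity
  obtain ⟨N₀, hN₀⟩ := exists_nat_gt (Q / (ε / 2))
  set N : ℕ := max (max N₀ M) 1 with hNd
  have hN1' : 1 ≤ N := le_max_right _ _
  have hN1 : (1 : ℝ) ≤ N := by exact_mod_cast hN1'
  have hN0 : (0 : ℝ) < N := by linarith
  have hNM : M ≤ N := (le_max_right _ _).trans (le_max_left _ _)
  have hQN : Q * (N : ℝ)⁻¹ ≤ ε / 2 := by
    have h1 : (N₀ : ℝ) ≤ N := by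
      have : N₀ ≤ N := (le_max_left _ _).trans (le_max_left _ _)
      exact_mod_cast this
    rw [← div_eq_mul_inv, div_le_iff₀ hN0]
    rw [div_lt_iff₀ (by positivity)] at hN₀
    nlinarith
  set E : V n → ℝ := fun x => ‖Complex.exp (N * Θ x)‖ with hE
  have hE0 : ∀ x, 0 ≤ E x := fun x => norm_nonneg _
  have hEc : Continuous E := by
    have := hΘ.continuous
    fun_prop
  set J : ℝ := ∫ x in Om ρ, ρ x ^ j * ‖χ x‖ ^ 2 * E x ^ 2 with hJ
  have hJl : c * ((N : ℝ)⁻¹) ^ (j + 1) ≤ J := hlow N hNM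
  have hJ0 : 0 < J := lt_of_lt_of_le (by positivity) hJl
  set Z : ℝ := (N : ℝ) ^ 2 * J with hZ
  have hZ0 : 0 < Z := by positivity
  have hZl : c * N * ((N : ℝ)⁻¹) ^ j ≤ Z := by
    have e1 : (N : ℝ) * (N : ℝ)⁻¹ = 1 := mul_inv_cancel₀ hN0.ne'
    have e2 : c * N * ((N : ℝ)⁻¹) ^ j = (N : ℝ) ^ 2 * (c * ((N : ℝ)⁻¹) ^ (j + 1)) := by
      rw [pow_succ]
      linear_combination (-c * N * ((N : ℝ)⁻¹) ^ j) * e1
    rw [e2, hZ]
    exact mul_le_mul_of_nonneg_left hJl (by positivity)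
  have hmeas : MeasurableSet (Om ρ ∩ Metric.closedBall p r) :=
    (Om_meas hρc).inter Metric.isClosed_closedBall.measurableSet
  set I : ℝ := ∫ x in Om ρ ∩ Metric.closedBall p r, (1 + N * ρ x) ^ (2 * L + j) * E x ^ 2 with hI
  have hIu : I ≤ C₃ * (N : ℝ)⁻¹ := hup3 N hN1'
  have hcI : Continuous fun x => (1 + N * ρ x) ^ (2 * L + j) * E x ^ 2 := by fun_prop
  refine ⟨U N, Z, hUs N, hZ0, fun x hx => hU0 N x fun h => hx
    (Metric.closedBall_subset_closedBall hrε h), ?_, ?_⟩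
  · -- the residual
    have h1 : ∫ x in Om ρ, ‖dv s (U N) x‖ ^ 2 ≤ C ^ 2 * ((N : ℝ)⁻¹) ^ (2 * j) * I := by
      rw [int_S hρc (p := p) (r := r) (fun x hx => by
        rw [dv_zero_off Metric.isClosed_closedBall (hU0 N) x hx]; simp), hI,
        ← integral_const_mul]
      have hc1 : Continuous fun x => ‖dv s (U N) x‖ ^ 2 := (dv_continuous hs (hUs N)).norm.pow 2
      refine setIntegral_mono_on (int_on hc1 _) (int_on (continuous_const.mul hcI) _) hmeas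
        fun x hx => ?_
      have hx0 : 0 < ρ x := hx.1
      have h2 := hUd N hN1' x
      rw [abs_of_pos hx0] at h2
      have hP : 1 ≤ 1 + N * ρ x := by
        have : 0 ≤ N * ρ x := by positivity
        linarith
      calc ‖dv s (U N) x‖ ^ 2 ≤ (C * ((N : ℝ)⁻¹) ^ j * (1 + N * ρ x) ^ L * E x) ^ 2 :=
            pow_le_pow_left₀ (norm_nonneg _) h2 2
        _ = C ^ 2 * ((N : ℝ)⁻¹) ^ (2 * j) * ((1 + N * ρ x) ^ (2 * L) * E x ^ 2) := by ring
        _ ≤ _ := by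
          have h3 : (1 + N * ρ x) ^ (2 * L) ≤ (1 + N * ρ x) ^ (2 * L + j) :=
            pow_le_pow_right₀ hP (by omega)
          gcongr
    have hI0 : 0 ≤ I := integral_nonneg_of_ae ((ae_restrict_iff' hmeas).2
      (Eventually.of_forall fun x hx => by
        have hx0 : 0 < ρ x := hx.1
        show 0 ≤ (1 + N * ρ x) ^ (2 * L + j) * E x ^ 2
        positivity))
    have h2 : Z⁻¹ * ∫ x in Om ρ, ‖dv s (U N) x‖ ^ 2 ≤ Q * (N : ℝ)⁻¹ := by
      rw [inv_mul_le_iff₀ hZ0]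
      refine h1.trans ?_
      have h3 : ((N : ℝ)⁻¹) ^ (2 * j) ≤ ((N : ℝ)⁻¹) ^ j :=
        pow_le_pow_of_le_one (by positivity) (inv_le_one_of_one_le₀ hN1) (by omega)
      calc C ^ 2 * ((N : ℝ)⁻¹) ^ (2 * j) * I
          ≤ C ^ 2 * ((N : ℝ)⁻¹) ^ j * (C₃ * (N : ℝ)⁻¹) := by gcongr
        _ ≤ C ^ 2 * ((N : ℝ)⁻¹) ^ j * (C₃ * 1) := by
            gcongr
            exact inv_le_one_of_one_le₀ hN1
        _ = (c * N * ((N : ℝ)⁻¹) ^ j) * (C ^ 2 * C₃ / c * (N : ℝ)⁻¹) := by field_simp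
        _ ≤ Z * (Q * (N : ℝ)⁻¹) := by
            have h4 : C ^ 2 * C₃ / c ≤ Q := by
              have : 0 ≤ (2 * C * T + C ^ 2) * C₃ / c := by positivity
              linarith
            gcongr
    linarith
  · -- the limit
    intro a b
    have hec : Continuous fun x => Complex.exp (N * Θ x) := by
      have := hΘ.continuous
      fun_prop
    have hmc : ∀ a, Continuous fun x => N * pd a Θ x * Complex.exp (N * Θ x) * χ x := fun a =>
      ((continuous_const.mul (pdc_continuous hΘ a)).mul hec).mul hχ.continuous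
    have hm : ∀ a, ∀ x ∈ Metric.closedBall p r,
        ‖N * pd a Θ x * Complex.exp (N * Θ x) * χ x‖ ≤ N * T * E x := by
      intro a x hx
      simp only [norm_mul, Complex.norm_natCast]
      calc (N : ℝ) * ‖pd a Θ x‖ * ‖Complex.exp (N * Θ x)‖ * ‖χ x‖
          ≤ N * T * E x * 1 := by
            gcongr
            · exact hT x hx a
            · exact hχn x
        _ = _ := by ring
    have h1 := diff1 hD (p := p) (r := r) (pdc_continuous (hUs N) a) (pdc_continuous (hUs N) b)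
      (hmc a) (hmc b) (zero_off Metric.isClosed_closedBall (hU0 N) a)
      (fun x hx => by rw [hχ0 x hx, mul_zero]) hEc hE0 hC hT0 hN1 L j (hUp N hN1' a) (hUp N hN1' b)
      (hm a) (hm b)
    set w : V n → ℝ := fun x => ρ x ^ j * ‖χ x‖ ^ 2 * E x ^ 2 with hw
    have hwc : Continuous w := by
      have := hχ.continuous
      fun_prop
    have h2 := diff2 hD (p := p) (r := r) (hcont a b) hwc (fun x hx => by
      have hx0 : 0 < ρ x := hx
      simp only [hw]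
      positivity) (fun x hx => by simp only [hw]; rw [hχ0 x hx]; simp)
      (pd a Θ p * conj (pd b Θ p)) (M := (N : ℝ) ^ 2) (ε := ε / 2) (by positivity)
      (fun x hx => ((hr₁' x (hSb x hx)).2 a b).le)
    have e2 : ∀ x, ((ρ x ^ j : ℝ) : ℂ) * ((N * pd a Θ x * Complex.exp (N * Θ x) * χ x) *
        conj (N * pd b Θ x * Complex.exp (N * Θ x) * χ x)) =
        ((w x : ℝ) : ℂ) * ((((N : ℝ) ^ 2 : ℝ) : ℂ) * (pd a Θ x * conj (pd b Θ x))) := by
      intro x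
      have e3 : ((‖χ x‖ ^ 2 : ℝ) : ℂ) = χ x * conj (χ x) := by
        rw [Complex.mul_conj, Complex.normSq_eq_norm_sq]
      have e4 : ((E x ^ 2 : ℝ) : ℂ) = Complex.exp (N * Θ x) * conj (Complex.exp (N * Θ x)) := by
        rw [Complex.mul_conj, Complex.normSq_eq_norm_sq]
      simp only [hw]
      rw [Complex.ofReal_mul, Complex.ofReal_mul, e3, e4]
      simp only [map_mul, Complex.conj_natCast]
      push_cast
      ring
    simp_rw [e2] at h1
    rw [← hJ, ← hZ] at h2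
    have h3 : ((2 * C * T + C ^ 2) * N * ((N : ℝ)⁻¹) ^ j) * I ≤ Z * (ε / 2) := by
      calc ((2 * C * T + C ^ 2) * N * ((N : ℝ)⁻¹) ^ j) * I
          ≤ ((2 * C * T + C ^ 2) * N * ((N : ℝ)⁻¹) ^ j) * (C₃ * (N : ℝ)⁻¹) := by gcongr
        _ = (c * N * ((N : ℝ)⁻¹) ^ j) * ((2 * C * T + C ^ 2) * C₃ / c * (N : ℝ)⁻¹) := by
            field_simp
        _ ≤ Z * (Q * (N : ℝ)⁻¹) := by
            have h4 : (2 * C * T + C ^ 2) * C₃ / c ≤ Q := by
              have : 0 ≤ C ^ 2 * C₃ / c := by positivity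
              linarith
            gcongr
        _ ≤ Z * (ε / 2) := by gcongr
    exact concl hZ0 (h1.trans h3) h2

end Vale.Agent.P088.R2.H381
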