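import Vale.Agent.P088.H72.B.Defs

/-!
# P088, boundary quasimodes: the output of the algebraic part
-/

open MeasureTheory Set Filter Topology
open scoped ContDiff Matrix

noncomputable section

namespace Vale.Agent.P088.R2.H381

open Vale.Agent.P088.LR Vale.Agent.P088.LR.B

/-- The phase `Θ` and, for every cut-off `χ` with support near `p` and every order `K`, the
quasimodes `U N = e^{NΘ} (χ + O(1/N))` with `div (s ∇ U) = O(N^{-K})`, pointwise bounds. -/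
def QUAlg : Prop := ∀ {n : ℕ} (ρ : V n → ℝ), Dom ρ → ∀ s : MF n, SmM s → (∀ x, (s x).PosDef) →
  ∀ p, ρ p = 0 → ∀ τ : V n, ∑ i, τ i ^ 2 = 1 → ∑ i, τ i * pd i ρ p = 0 →
  ∃ (β : ℂ) (Θ : V n → ℂ) (k : V n → ℝ) (G : Set (V n)),
    ‖β‖ ^ 2 * gr s ρ ρ p = ∑ i, ∑ j, s p i j * τ i * τ j ∧ ContDiff ℝ ∞ Θ ∧ Continuous k ∧
    (∀ x, 0 < k x) ∧ (∀ x, (Θ x).re = -(ρ x * k x)) ∧
    (∀ a, pd a Θ p = Complex.I * τ a + β * (pd a ρ p : ℝ)) ∧ IsOpen G ∧ p ∈ G ∧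
    ∀ S, IsCompact S → S ⊆ G → ∀ χ : V n → ℂ, ContDiff ℝ ∞ χ → (∀ x ∉ S, χ x = 0) →
    ∀ K : ℕ, ∃ (U : ℕ → V n → ℂ) (C : ℝ) (L : ℕ), 0 ≤ C ∧ (∀ N, ContDiff ℝ ∞ (U N)) ∧
      (∀ N, ∀ x ∉ S, U N x = 0) ∧
      (∀ N ≥ 1, ∀ a x, ‖pd a (U N) x - N * pd a Θ x * Complex.exp (N * Θ x) * χ x‖ ≤
        C * (1 + N * |ρ x|) ^ L * ‖Complex.exp (N * Θ x)‖) ∧
      ∀ N ≥ 1, ∀ x, ‖dv s (U N) x‖ ≤
        C * ((N : ℝ)⁻¹) ^ K * (1 + N * |ρ x|) ^ L * ‖Complex.exp (N * Θ x)‖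

end Vale.Agent.P088.R2.H381
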