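import Vale.Agent.P088.R2.H381.QDef
import Vale.Agent.P088.R2.H381.LayUp
import Vale.Agent.P088.R2.H381.LayLow

/-!
# P088, boundary quasimodes: integrals over the layer
-/

open MeasureTheory Set Filter Topology
open scoped ContDiff Matrix ComplexConjugate

noncomputable section

namespace Vale.Agent.P088.R2.H381

open Vale.Agent.P088.LR Vale.Agent.P088.LR.B

variable {n : ℕ}

theorem poly_exp {a : ℝ} (ha : 0 < a) (m : ℕ) {u : ℝ} (hu : 0 ≤ u) :
    (1 + u) ^ m * Real.exp (-(a * u)) ≤ (1 + m / a) ^ m := by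
  rcases Nat.eq_zero_or_pos m with rfl | hm
  · simp only [pow_zero, one_mul]
    exact Real.exp_le_one_iff.2 (by nlinarith)
  · have hm' : (0 : ℝ) < m := by exact_mod_cast hm
    have h1 : 1 + a * u / m ≤ Real.exp (a * u / m) := by
      have := Real.add_one_le_exp (a * u / m)
      linarith
    have h2 : 1 + u ≤ (1 + m / a) * Real.exp (a * u / m) := by
      calc 1 + u ≤ (1 + m / a) * (1 + a * u / m) := by
            have : (1 + m / a) * (1 + a * u / m) = 1 + u + (m / a + a * u / m) := by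
              field_simp
              ring
            rw [this]
            have : 0 ≤ m / a + a * u / m := by positivity
            linarith
        _ ≤ _ := by gcongr
    have h3 : (1 + u) ^ m ≤ (1 + m / a) ^ m * Real.exp (a * u) := by
      calc (1 + u) ^ m ≤ ((1 + m / a) * Real.exp (a * u / m)) ^ m :=
            pow_le_pow_left₀ (by positivity) h2 m
        _ = (1 + m / a) ^ m * Real.exp (a * u) := by
            rw [mul_pow, ← Real.exp_nat_mul]
            congr 2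
            field_simp
    calc (1 + u) ^ m * Real.exp (-(a * u)) ≤ ((1 + m / a) ^ m * Real.exp (a * u)) *
          Real.exp (-(a * u)) := by gcongr
      _ = (1 + m / a) ^ m := by
          rw [mul_assoc, ← Real.exp_add]
          simp

theorem Om_bdd {ρ : V n → ℝ} (hD : Dom ρ) : Bornology.IsBounded (Om ρ) := by
  refine (Metric.isBounded_closedBall (x := (0 : V n)) (r := 1)).subset fun x hx => ?_
  have h1 : x ∈ core n := by
    by_contra h2
    have h3 := hD.off x h2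
    have h4 : 0 < ρ x := hx
    linarith
  rw [mem_closedBall_zero_iff, pi_norm_le_iff_of_nonneg zero_le_one]
  intro i
  have h5 := h1 i
  rw [Real.norm_eq_abs, abs_le]
  constructor <;> linarith [h5.1, h5.2]

theorem Om_meas {ρ : V n → ℝ} (hρ : Continuous ρ) : MeasurableSet (Om ρ) :=
  measurableSet_lt measurable_const hρ.measurable

theorem int_on {F : Type*} [NormedAddCommGroup F] [NormedSpace ℝ F] {f : V n → F} (hf : Continuous f)
    (A : Set (V n)) {p : V n} {r : ℝ} : IntegrableOn f (A ∩ Metric.closedBall p r) :=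
  (hf.continuousOn.integrableOn_compact (isCompact_closedBall p r)).mono_set inter_subset_right

theorem int_Om {F : Type*} [NormedAddCommGroup F] [NormedSpace ℝ F] {ρ : V n → ℝ} (hD : Dom ρ)
    {f : V n → F} (hf : Continuous f) : IntegrableOn f (Om ρ) :=
  (hf.continuousOn.integrableOn_compact (Om_bdd hD).isCompact_closure).mono_set subset_closure

theorem norm_ex {Θ : V n → ℂ} {ρ k : V n → ℝ} (h : ∀ x, (Θ x).re = -(ρ x * k x)) (N : ℕ) (x : V n) :
    ‖Complex.exp (N * Θ x)‖ = Real.exp (-(N * ρ x * k x)) := by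
  rw [Complex.norm_exp]
  congr 1
  simp [h]
  ring

/-- Upper bound of the layer integrals. -/
theorem int_up {ρ : V n → ℝ} (hρ : ContDiff ℝ ∞ ρ) {p : V n} (hd : fderiv ℝ ρ p ≠ 0)
    {Θ : V n → ℂ} (hΘ : Continuous Θ) {k : V n → ℝ} (hk : Continuous k) (hk0 : ∀ x, 0 < k x)
    (hre : ∀ x, (Θ x).re = -(ρ x * k x)) :
    ∃ r₀ > 0, ∀ r, 0 < r → r ≤ r₀ → ∀ m : ℕ, ∃ C, 0 < C ∧ ∀ N : ℕ, 1 ≤ N →
      ∫ x in Om ρ ∩ Metric.closedBall p r, (1 + N * ρ x) ^ m * ‖Complex.exp (N * Θ x)‖ ^ 2 ≤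
        C * (N : ℝ)⁻¹ := by
  obtain ⟨r₀, hr₀, C, hC, hlay⟩ := lay_up hρ hd
  refine ⟨r₀, hr₀, fun r hr hrr m => ?_⟩
  obtain ⟨y, hy, hmin⟩ := (isCompact_closedBall p r).exists_isMinOn
    ⟨p, Metric.mem_closedBall_self hr.le⟩ hk.continuousOn
  set k₀ := k y with hk₀
  have hk₀0 : 0 < k₀ := hk0 y
  have hmin' : ∀ x ∈ Metric.closedBall p r, k₀ ≤ k x := fun x hx => hmin hx
  refine ⟨(1 + m / k₀) ^ m * (C / k₀), by positivity, fun N hN => ?_⟩
  have hN0 : (0 : ℝ) < N := by exact_mod_cast hN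
  have hρc := hρ.continuous
  have hmeas : MeasurableSet (Om ρ ∩ Metric.closedBall p r) :=
    (Om_meas hρc).inter Metric.isClosed_closedBall.measurableSet
  have hc1 : Continuous fun x => (1 + N * ρ x) ^ m * ‖Complex.exp (N * Θ x)‖ ^ 2 := by fun_prop
  have hc2 : Continuous fun x => (1 + m / k₀) ^ m * Real.exp (-(k₀ * N * ρ x)) := by fun_prop
  have h1 : ∫ x in Om ρ ∩ Metric.closedBall p r, (1 + N * ρ x) ^ m * ‖Complex.exp (N * Θ x)‖ ^ 2 ≤
      ∫ x in Om ρ ∩ Metric.closedBall p r, (1 + m / k₀) ^ m * Real.exp (-(k₀ * N * ρ x)) := by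
    refine setIntegral_mono_on (int_on hc1 _) (int_on hc2 _) hmeas fun x hx => ?_
    have hx0 : 0 < ρ x := hx.1
    have hu : 0 ≤ N * ρ x := by positivity
    have h2 := poly_exp hk₀0 m hu
    have h3 : ‖Complex.exp (N * Θ x)‖ ^ 2 ≤
        Real.exp (-(k₀ * (N * ρ x))) * Real.exp (-(k₀ * N * ρ x)) := by
      rw [norm_ex hre, sq]
      have h4 := hmin' x hx.2
      have h5 : Real.exp (-(N * ρ x * k x)) ≤ Real.exp (-(k₀ * (N * ρ x))) := by
        refine Real.exp_le_exp.2 ?_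
        nlinarith
      have h6 : Real.exp (-(N * ρ x * k x)) ≤ Real.exp (-(k₀ * N * ρ x)) := by
        refine Real.exp_le_exp.2 ?_
        nlinarith
      exact mul_le_mul h5 h6 (Real.exp_pos _).le (Real.exp_pos _).le
    calc (1 + N * ρ x) ^ m * ‖Complex.exp (N * Θ x)‖ ^ 2
        ≤ (1 + N * ρ x) ^ m * (Real.exp (-(k₀ * (N * ρ x))) * Real.exp (-(k₀ * N * ρ x))) := by
          gcongr
      _ = ((1 + N * ρ x) ^ m * Real.exp (-(k₀ * (N * ρ x)))) * Real.exp (-(k₀ * N * ρ x)) := by ring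
      _ ≤ _ := by gcongr
  refine h1.trans ?_
  rw [integral_const_mul]
  have h2 : ∫ x in Om ρ ∩ Metric.closedBall p r, Real.exp (-(k₀ * N * ρ x)) ≤
      ∫ x in Om ρ ∩ Metric.closedBall p r₀, Real.exp (-(k₀ * N * ρ x)) := by
    have hc3 : Continuous fun x => Real.exp (-(k₀ * N * ρ x)) := by fun_prop
    refine setIntegral_mono_set (int_on hc3 _) (Eventually.of_forall fun x => (Real.exp_pos _).le) ?_
    exact (inter_subset_inter_right _ (Metric.closedBall_subset_closedBall hrr)).eventuallyLE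
  have h3 := hlay (k₀ * N) (by positivity)
  calc (1 + m / k₀) ^ m * ∫ x in Om ρ ∩ Metric.closedBall p r, Real.exp (-(k₀ * N * ρ x))
      ≤ (1 + m / k₀) ^ m * (C / (k₀ * N)) := by
        gcongr
        exact h2.trans h3
    _ = _ := by
        field_simp

/-- Lower bound of the main term. -/
theorem int_low {ρ : V n → ℝ} (hD : Dom ρ) {p : V n} (hp : ρ p = 0)
    {Θ : V n → ℂ} (hΘ : Continuous Θ) {k : V n → ℝ} (hk : Continuous k) (hk0 : ∀ x, 0 < k x)
    (hre : ∀ x, (Θ x).re = -(ρ x * k x)) {r : ℝ} (hr : 0 < r) {χ : V n → ℂ} (hχ : Continuous χ)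
    (hχ1 : ∀ x ∈ Metric.closedBall p r, χ x = 1) (j : ℕ) :
    ∃ c > 0, ∃ M : ℕ, ∀ N : ℕ, M ≤ N → c * ((N : ℝ)⁻¹) ^ (j + 1) ≤
      ∫ x in Om ρ, ρ x ^ j * ‖χ x‖ ^ 2 * ‖Complex.exp (N * Θ x)‖ ^ 2 := by
  obtain ⟨c, hc, M, hM, hlow⟩ := lay_low hD.sm hp (hD.nz p hp) hr
  obtain ⟨y, hy, hmax⟩ := (isCompact_closedBall p r).exists_isMaxOn
    ⟨p, Metric.mem_closedBall_self hr.le⟩ hk.continuousOn
  set k₁ := k y with hk₁
  have hk₁0 : 0 < k₁ := hk0 y
  have hmax' : ∀ x ∈ Metric.closedBall p r, k x ≤ k₁ := fun x hx => hmax hx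
  refine ⟨Real.exp (-(4 * k₁)) * c, by positivity, ⌈M⌉₊ + 1, fun N hN => ?_⟩
  have hN1 : (1 : ℝ) ≤ N := by
    have : 1 ≤ N := by omega
    exact_mod_cast this
  have hN0 : (0 : ℝ) < N := by linarith
  have hNM : M ≤ N := by
    have h1 : (⌈M⌉₊ : ℝ) ≤ N := by
      have : ⌈M⌉₊ ≤ N := by omega
      exact_mod_cast this
    exact (Nat.le_ceil M).trans h1
  have hρc := hD.sm.continuous
  set A : Set (V n) := Metric.closedBall p r ∩ {x | 1 / (N : ℝ) < ρ x ∧ ρ x < 2 / N} with hA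
  have hAm : MeasurableSet A := by
    refine Metric.isClosed_closedBall.measurableSet.inter ?_
    exact (measurableSet_lt measurable_const hρc.measurable).inter
      (measurableSet_lt hρc.measurable measurable_const)
  have hAO : A ⊆ Om ρ := fun x hx => by
    have h1 : 0 < 1 / (N : ℝ) := by positivity
    exact h1.trans hx.2.1
  have hcf : Continuous fun x => ρ x ^ j * ‖χ x‖ ^ 2 * ‖Complex.exp (N * Θ x)‖ ^ 2 := by fun_prop
  have hfi := int_Om hD hcf
  have h1 : ∫ x in A, ρ x ^ j * ‖χ x‖ ^ 2 * ‖Complex.exp (N * Θ x)‖ ^ 2 ≤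
      ∫ x in Om ρ, ρ x ^ j * ‖χ x‖ ^ 2 * ‖Complex.exp (N * Θ x)‖ ^ 2 := by
    refine setIntegral_mono_set hfi ?_ hAO.eventuallyLE
    refine (ae_restrict_iff' (Om_meas hρc)).2 (Eventually.of_forall fun x hx => ?_)
    have hx0 : 0 < ρ x := hx
    positivity
  refine le_trans ?_ h1
  have hAfin : volume A ≠ ⊤ :=
    ((measure_mono inter_subset_left).trans_lt (isCompact_closedBall p r).measure_lt_top).ne
  have h2 : ∫ x in A, ((N : ℝ)⁻¹) ^ j * Real.exp (-(4 * k₁)) ≤
      ∫ x in A, ρ x ^ j * ‖χ x‖ ^ 2 * ‖Complex.exp (N * Θ x)‖ ^ 2 := by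
    refine setIntegral_mono_on (integrableOn_const hAfin) (hfi.mono_set hAO) hAm fun x hx => ?_
    have hx1 : 1 / (N : ℝ) < ρ x := hx.2.1
    have hx2 : ρ x < 2 / N := hx.2.2
    have hx0 : 0 < ρ x := lt_trans (by positivity) hx1
    rw [hχ1 x hx.1, norm_one, norm_ex hre, one_pow, mul_one]
    have h3 : ((N : ℝ)⁻¹) ^ j ≤ ρ x ^ j := pow_le_pow_left₀ (by positivity) (by
      rw [← one_div]; exact hx1.le) j
    have h4 : Real.exp (-(4 * k₁)) ≤ Real.exp (-(N * ρ x * k x)) ^ 2 := by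
      rw [← Real.exp_nat_mul]
      refine Real.exp_le_exp.2 ?_
      have h5 : N * ρ x ≤ 2 := by
        rw [lt_div_iff₀ hN0] at hx2
        linarith
      have h6 := hmax' x hx.1
      have h7 := hk0 x
      have h8 : N * ρ x * k x ≤ 2 * k₁ := mul_le_mul h5 h6 h7.le (by norm_num)
      push_cast
      linarith
    exact mul_le_mul h3 h4 (Real.exp_pos _).le (by positivity)
  refine le_trans ?_ h2
  rw [setIntegral_const, smul_eq_mul]
  have h3 := hlow N hNM
  have h4 : (volume.real A) = (volume A).toReal := rfl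
  rw [h4]
  calc Real.exp (-(4 * k₁)) * c * ((N : ℝ)⁻¹) ^ (j + 1)
      = (c / N) * (((N : ℝ)⁻¹) ^ j * Real.exp (-(4 * k₁))) := by
        rw [pow_succ]
        field_simp
    _ ≤ _ := by gcongr

end Vale.Agent.P088.R2.H381
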