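import Vale.Agent.P088.R2.H381.QCal

/-!
# P088, boundary quasimodes: the recursion

`Mo Θ ρ S q` is the span of the families `λ^{-r} e^{λΘ} (λρ)^l f`, `r ≥ q`, `f` smooth, `f = 0` off
`S`; here `λ = N + 1`. The operator `λ^{-2} div (s ∇ ·)` maps `Mo q` onto `Mo q` modulo `Mo (q + 1)`.
-/

open MeasureTheory Set Filter Topology
open scoped ContDiff Matrix

noncomputable section

namespace Vale.Agent.P088.R2.H381

open Vale.Agent.P088.LR Vale.Agent.P088.LR.B Vale.Agent.P088.LR.H705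

variable {n : ℕ}

/-- `N + 1`. -/
def lm (N : ℕ) : ℂ := (N : ℂ) + 1

theorem lm_ne (N : ℕ) : lm N ≠ 0 := by
  unfold lm
  exact_mod_cast Nat.succ_ne_zero N

/-- Smooth and zero off `S`. -/
def Sp (S : Set (V n)) (f : V n → ℂ) : Prop := ContDiff ℝ ∞ f ∧ ∀ x ∉ S, f x = 0

/-- `λ^{-r} e^{λΘ} (λρ)^l f`. -/
def gen (Θ r : V n → ℂ) (q l : ℕ) (f : V n → ℂ) : ℕ → V n → ℂ := fun N x =>
  (lm N)⁻¹ ^ q * (Complex.exp (lm N * Θ x) * ((lm N * r x) ^ l * f x))

/-- The families of order at least `q`. -/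
def Mo (Θ r : V n → ℂ) (S : Set (V n)) (q : ℕ) : Submodule ℂ (ℕ → V n → ℂ) :=
  Submodule.span ℂ {W | ∃ q' l f, q ≤ q' ∧ Sp S f ∧ W = gen Θ r q' l f}

theorem gen_mem {Θ r : V n → ℂ} {S : Set (V n)} {q q' l : ℕ} {f : V n → ℂ} (h : q ≤ q')
    (hf : Sp S f) : gen Θ r q' l f ∈ Mo Θ r S q := Submodule.subset_span ⟨q', l, f, h, hf, rfl⟩

theorem Mo_mono {Θ r : V n → ℂ} {S : Set (V n)} {q q' : ℕ} (h : q ≤ q') :
    Mo Θ r S q' ≤ Mo Θ r S q :=
  Submodule.span_mono fun _ ⟨a, l, f, h1, h2, h3⟩ => ⟨a, l, f, h.trans h1, h2, h3⟩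

theorem gen_contDiff {Θ r : V n → ℂ} (hΘ : ContDiff ℝ ∞ Θ) (hr : ContDiff ℝ ∞ r) (q l : ℕ)
    {f : V n → ℂ} (hf : ContDiff ℝ ∞ f) (N : ℕ) : ContDiff ℝ ∞ (gen Θ r q l f N) :=
  contDiff_const.mul ((exp_contDiff hΘ _).mul (((contDiff_const.mul hr).pow l).mul hf))

/-- Every member is smooth and zero off `S`. -/
theorem Mo_Sp {Θ r : V n → ℂ} (hΘ : ContDiff ℝ ∞ Θ) (hr : ContDiff ℝ ∞ r) {S : Set (V n)} {q : ℕ}
    {W : ℕ → V n → ℂ} (hW : W ∈ Mo Θ r S q) (N : ℕ) : Sp S (W N) := by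
  induction hW using Submodule.span_induction with
  | mem W h =>
    obtain ⟨q', l, f, _, hf, rfl⟩ := h
    exact ⟨gen_contDiff hΘ hr q' l hf.1 N, fun x hx => by unfold gen; rw [hf.2 x hx]; ring⟩
  | zero => exact ⟨contDiff_const, fun x _ => rfl⟩
  | add W₁ W₂ _ _ h₁ h₂ => exact ⟨h₁.1.add h₂.1, fun x hx => by
      show W₁ N x + W₂ N x = 0
      rw [h₁.2 x hx, h₂.2 x hx, add_zero]⟩
  | smul c W _ h =>
    refine ⟨?_, fun x hx => ?_⟩
    · show ContDiff ℝ ∞ (fun x => c * W N x)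
      exact contDiff_const.mul h.1
    · show c * W N x = 0
      rw [h.2 x hx, mul_zero]

/-! ### supports -/

theorem Sp_pd {S : Set (V n)} (hS : IsClosed S) {f : V n → ℂ} (hf : Sp S f) (i : Fin n) :
    Sp S (pd i f) := by
  refine ⟨contDiff_pd hf.1 i, fun x hx => ?_⟩
  have h1 : f =ᶠ[𝓝 x] fun _ => 0 := by
    filter_upwards [hS.isOpen_compl.mem_nhds hx] with y hy
    exact hf.2 y hy
  unfold pd
  rw [h1.fderiv_eq]
  simp

theorem Sp_mul_left {S : Set (V n)} {f g : V n → ℂ} (hg : ContDiff ℝ ∞ g) (hf : Sp S f) :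
    Sp S (fun x => g x * f x) :=
  ⟨hg.mul hf.1, fun x hx => by simp only [hf.2 x hx, mul_zero]⟩

theorem Sp_add {S : Set (V n)} {f g : V n → ℂ} (hg : Sp S g) (hf : Sp S f) :
    Sp S (fun x => g x + f x) :=
  ⟨hg.1.add hf.1, fun x hx => by simp only [hf.2 x hx, hg.2 x hx, add_zero]⟩

theorem contDiff_B {s : MF n} (hs : SmM s) {u v : V n → ℂ} (hu : ContDiff ℝ ∞ u)
    (hv : ContDiff ℝ ∞ v) : ContDiff ℝ ∞ (B s u v) := by
  unfold B
  refine ContDiff.sum fun i _ => ContDiff.sum fun j _ => ?_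
  exact ((Complex.ofRealCLM.contDiff.comp (hs i j)).mul (contDiff_pd hu i)).mul (contDiff_pd hv j)

theorem contDiff_dv {s : MF n} (hs : SmM s) {u : V n → ℂ} (hu : ContDiff ℝ ∞ u) :
    ContDiff ℝ ∞ (dv s u) := by
  unfold dv
  exact ContDiff.sum fun i _ => contDiff_pd (contDiff_flx hs hu i) i

theorem Sp_B {s : MF n} (hs : SmM s) {S : Set (V n)} (hS : IsClosed S) {u f : V n → ℂ}
    (hu : ContDiff ℝ ∞ u) (hf : Sp S f) : Sp S (B s u f) := by
  refine ⟨contDiff_B hs hu hf.1, fun x hx => ?_⟩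
  unfold B
  refine Finset.sum_eq_zero fun i _ => Finset.sum_eq_zero fun j _ => ?_
  rw [(Sp_pd hS hf j).2 x hx, mul_zero]

theorem Sp_dv {s : MF n} (hs : SmM s) {S : Set (V n)} (hS : IsClosed S) {f : V n → ℂ}
    (hf : Sp S f) : Sp S (dv s f) := by
  refine ⟨contDiff_dv hs hf.1, fun x hx => ?_⟩
  unfold dv
  refine Finset.sum_eq_zero fun i _ => ?_
  have h1 : Sp S (flx s f i) := by
    refine ⟨contDiff_flx hs hf.1 i, fun y hy => ?_⟩
    unfold flx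
    refine Finset.sum_eq_zero fun j _ => ?_
    rw [(Sp_pd hS hf j).2 y hy, mul_zero]
  exact (Sp_pd hS h1 i).2 x hx

/-! ### the operator -/

/-- `λ^{-2} div (s ∇ W)`. -/
def Lo (s : MF n) (W : ℕ → V n → ℂ) : ℕ → V n → ℂ := fun N x => (lm N)⁻¹ ^ 2 * dv s (W N) x

theorem dv_add' {s : MF n} (hs : SmM s) {u v : V n → ℂ} (hu : ContDiff ℝ ∞ u)
    (hv : ContDiff ℝ ∞ v) (x : V n) : dv s (fun y => u y + v y) x = dv s u x + dv s v x := by
  unfold dv
  rw [← Finset.sum_add_distrib]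
  refine Finset.sum_congr rfl fun i _ => ?_
  have h1 : (fun y => ∑ j, (s y i j : ℂ) * pd j (fun y => u y + v y) y) =
      fun y => flx s u i y + flx s v i y := by
    funext y
    unfold flx
    rw [← Finset.sum_add_distrib]
    refine Finset.sum_congr rfl fun j _ => ?_
    unfold pd
    rw [fderiv_fun_add (hu.differentiable (by simp) y) (hv.differentiable (by simp) y)]
    simp
    ring
  rw [h1]
  unfold pd
  rw [fderiv_fun_add ((contDiff_flx hs hu i).differentiable (by simp) x)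
    ((contDiff_flx hs hv i).differentiable (by simp) x)]
  rfl

theorem Lo_add {s : MF n} (hs : SmM s) {W₁ W₂ : ℕ → V n → ℂ} (h₁ : ∀ N, ContDiff ℝ ∞ (W₁ N))
    (h₂ : ∀ N, ContDiff ℝ ∞ (W₂ N)) : Lo s (W₁ + W₂) = Lo s W₁ + Lo s W₂ := by
  funext N x
  show (lm N)⁻¹ ^ 2 * dv s (fun y => W₁ N y + W₂ N y) x = _
  rw [dv_add' hs (h₁ N) (h₂ N), mul_add]
  rfl

theorem Lo_smul {s : MF n} (hs : SmM s) (c : ℂ) {W : ℕ → V n → ℂ} (h : ∀ N, ContDiff ℝ ∞ (W N)) :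
    Lo s (c • W) = c • Lo s W := by
  funext N x
  show (lm N)⁻¹ ^ 2 * dv s (fun y => c * W N y) x = c * ((lm N)⁻¹ ^ 2 * dv s (W N) x)
  rw [dv_cmul hs (h N)]
  ring

theorem Lo_sub {s : MF n} (hs : SmM s) {W₁ W₂ : ℕ → V n → ℂ} (h₁ : ∀ N, ContDiff ℝ ∞ (W₁ N))
    (h₂ : ∀ N, ContDiff ℝ ∞ (W₂ N)) : Lo s (W₁ - W₂) = Lo s W₁ - Lo s W₂ := by
  have e : W₁ - W₂ = W₁ + (-1 : ℂ) • W₂ := by simp [sub_eq_add_neg]
  have h₃ : ∀ N, ContDiff ℝ ∞ (((-1 : ℂ) • W₂) N) := fun N => by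
    show ContDiff ℝ ∞ (fun x => (-1 : ℂ) * W₂ N x)
    exact contDiff_const.mul (h₂ N)
  rw [e, Lo_add hs h₁ h₃, Lo_smul hs _ h₂]
  simp [sub_eq_add_neg]

/-- The data of the phase on `S`. -/
structure Ph (s : MF n) (Θ r : V n → ℂ) (S : Set (V n)) (e g : V n → ℂ) : Prop where
  hΘ : ContDiff ℝ ∞ Θ
  hr : ContDiff ℝ ∞ r
  he : ContDiff ℝ ∞ e
  hg : ContDiff ℝ ∞ g
  eik : ∀ x ∈ S, B s Θ Θ x = r x * e x
  inv : ∀ x ∈ S, g x * B s Θ r x = 1

/-- `Lo` of a generator. -/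
theorem Lo_gen {s : MF n} (hs : SmM s) (hsym : ∀ x, (s x).IsSymm) {S : Set (V n)}
    {Θ r e g : V n → ℂ} (h : Ph s Θ r S e g) (q l : ℕ) {f : V n → ℂ} (hf : Sp S f) :
    Lo s (gen Θ r q l f) = gen Θ r q (l - 1) (fun x => 2 * l * B s Θ r x * f x) +
      gen Θ r q (l - 2) (fun x => l * (l - 1 : ℕ) * B s r r x * f x) +
      gen Θ r (q + 1) (l + 1) (fun x => e x * f x) +
      gen Θ r (q + 1) l (fun x => dv s Θ x * f x + 2 * B s Θ f x) +
      gen Θ r (q + 1) (l - 1) (fun x => l * (dv s r x * f x + 2 * B s r f x)) +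
      gen Θ r (q + 2) l (dv s f) := by
  funext N x
  have hc := lm_ne N
  have h1 : dv s (gen Θ r q l f N) x = (lm N)⁻¹ ^ q *
      dv s (fun y => Complex.exp (lm N * Θ y) * ((lm N * r y) ^ l * f y)) x := by
    exact dv_cmul hs ((exp_contDiff h.hΘ _).mul (((contDiff_const.mul h.hr).pow l).mul hf.1)) _ x
  have h2 : (lm N * r x) ^ l * (B s Θ Θ x * f x) = (lm N)⁻¹ * ((lm N * r x) ^ (l + 1) * (e x * f x)) := by
    by_cases hx : x ∈ S
    · rw [h.eik x hx, pow_succ]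
      field_simp
    · rw [hf.2 x hx]
      ring
  show (lm N)⁻¹ ^ 2 * dv s (gen Θ r q l f N) x = _
  rw [h1, dv_gen hs hsym h.hΘ h.hr hf.1, h2]
  simp only [Pi.add_apply, gen]
  have hu : lm N * (lm N)⁻¹ = 1 := mul_inv_cancel₀ hc
  set u := (lm N)⁻¹ with hud
  have hu2 : u ^ 2 * lm N ^ 2 = 1 := by
    linear_combination (lm N * u + 1) * hu
  have hu1 : u ^ 2 * lm N = u := by
    linear_combination u * hu
  linear_combination (u ^ q * Complex.exp (lm N * Θ x) * (u * ((lm N * r x) ^ (l + 1) * (e x * f x)) +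
    (lm N * r x) ^ (l - 1) * (2 * l * B s Θ r x * f x) +
    (lm N * r x) ^ (l - 2) * (l * (l - 1 : ℕ) * B s r r x * f x))) * hu2 +
    (u ^ q * Complex.exp (lm N * Θ x) * ((lm N * r x) ^ l * (dv s Θ x * f x + 2 * B s Θ f x) +
        (lm N * r x) ^ (l - 1) * (l * (dv s r x * f x + 2 * B s r f x)))) * hu1

/-- Solution of the leading part. -/
theorem solve {s : MF n} (hs : SmM s) (hsym : ∀ x, (s x).IsSymm) {S : Set (V n)} (hS : IsClosed S)
    {Θ r e g : V n → ℂ} (h : Ph s Θ r S e g) (q : ℕ) {W : ℕ → V n → ℂ} (hW : W ∈ Mo Θ r S q) :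
    ∃ Y ∈ Mo Θ r S q, Lo s Y - W ∈ Mo Θ r S (q + 1) := by
  have hsm : ∀ {q : ℕ} {W : ℕ → V n → ℂ}, W ∈ Mo Θ r S q → ∀ N, ContDiff ℝ ∞ (W N) :=
    fun hW N => (Mo_Sp h.hΘ h.hr hW N).1
  have hcB : ContDiff ℝ ∞ (B s r r) := contDiff_B hs h.hr h.hr
  have key : ∀ l : ℕ, ∀ (q' : ℕ) (f : V n → ℂ), q ≤ q' → Sp S f →
      ∃ Y ∈ Mo Θ r S q, Lo s Y - gen Θ r q' l f ∈ Mo Θ r S (q + 1) := by
    intro l
    induction l with
    | zero =>
      intro q' f hq hf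
      set f₁ : V n → ℂ := fun x => (2⁻¹ * g x) * f x with hf₁
      have hf₁S : Sp S f₁ := Sp_mul_left (contDiff_const.mul h.hg) hf
      refine ⟨gen Θ r q' 1 f₁, gen_mem hq hf₁S, ?_⟩
      have e1 : (fun x => 2 * ((1 : ℕ) : ℂ) * B s Θ r x * f₁ x) = f := by
        funext x
        by_cases hx : x ∈ S
        · simp only [hf₁, Nat.cast_one]
          linear_combination (f x) * h.inv x hx
        · simp only [hf₁]
          rw [hf.2 x hx]
          ring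
      have e2 : gen Θ r q' (1 - 2) (fun x => ((1 : ℕ) : ℂ) * (1 - 1 : ℕ) * B s r r x * f₁ x) = 0 := by
        funext N x
        simp [gen]
      rw [Lo_gen hs hsym h q' 1 hf₁S, e1, e2]
      have e3 : ∀ a b c d t : ℕ → V n → ℂ, a + 0 + b + c + d + t - a = b + c + d + t := by
        intro a b c d t; abel
      rw [show (1 - 1 : ℕ) = 0 from rfl, e3]
      refine Submodule.add_mem _ (Submodule.add_mem _ (Submodule.add_mem _ ?_ ?_) ?_) ?_
      · exact gen_mem (by omega) (Sp_mul_left h.he hf₁S)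
      · exact gen_mem (by omega) (Sp_add (Sp_mul_left (contDiff_dv hs h.hΘ) hf₁S)
          (Sp_mul_left contDiff_const (Sp_B hs hS h.hΘ hf₁S)))
      · exact gen_mem (by omega) (Sp_mul_left contDiff_const
          (Sp_add (Sp_mul_left (contDiff_dv hs h.hr) hf₁S)
          (Sp_mul_left contDiff_const (Sp_B hs hS h.hr hf₁S))))
      · exact gen_mem (by omega) (Sp_dv hs hS hf₁S)
    | succ l ih =>
      intro q' f hq hf
      have hl : ((l : ℂ) + 2) ≠ 0 := by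
        have : ((l + 2 : ℕ) : ℂ) ≠ 0 := Nat.cast_ne_zero.2 (by omega)
        push_cast at this
        exact this
      set f₁ : V n → ℂ := fun x => ((2 * ((l : ℂ) + 2))⁻¹ * g x) * f x with hf₁
      have hf₁S : Sp S f₁ := Sp_mul_left (contDiff_const.mul h.hg) hf
      set f₂ : V n → ℂ := fun x => ((l + 2 : ℕ) : ℂ) * (l + 2 - 1 : ℕ) * B s r r x * f₁ x with hf₂
      have hf₂S : Sp S f₂ := Sp_mul_left (contDiff_const.mul hcB) hf₁S
      obtain ⟨Y₂, hY₂, hY₂'⟩ := ih q' f₂ hq hf₂S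
      have e1 : (fun x => 2 * ((l + 2 : ℕ) : ℂ) * B s Θ r x * f₁ x) = f := by
        funext x
        by_cases hx : x ∈ S
        · simp only [hf₁]
          push_cast
          have := h.inv x hx
          field_simp
          linear_combination (f x) * this
        · simp only [hf₁]
          rw [hf.2 x hx]
          ring
      refine ⟨gen Θ r q' (l + 2) f₁ - Y₂, Submodule.sub_mem _ (gen_mem hq hf₁S) hY₂, ?_⟩
      rw [Lo_sub hs (gen_contDiff h.hΘ h.hr _ _ hf₁S.1) (hsm hY₂), Lo_gen hs hsym h q' (l + 2) hf₁S, e1,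
        show l + 2 - 1 = l + 1 from rfl, show l + 2 - 2 = l from rfl]
      have e3 : ∀ a a' b c d t L : ℕ → V n → ℂ, a + a' + b + c + d + t - L - a =
          (b + c + d + t) - (L - a') := by
        intro a a' b c d t L; abel
      rw [e3]
      refine Submodule.sub_mem _ (Submodule.add_mem _ (Submodule.add_mem _ (Submodule.add_mem _ ?_ ?_) ?_) ?_) hY₂'
      · exact gen_mem (by omega) (Sp_mul_left h.he hf₁S)
      · exact gen_mem (by omega) (Sp_add (Sp_mul_left (contDiff_dv hs h.hΘ) hf₁S)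
          (Sp_mul_left contDiff_const (Sp_B hs hS h.hΘ hf₁S)))
      · exact gen_mem (by omega) (Sp_mul_left contDiff_const
          (Sp_add (Sp_mul_left (contDiff_dv hs h.hr) hf₁S)
          (Sp_mul_left contDiff_const (Sp_B hs hS h.hr hf₁S))))
      · exact gen_mem (by omega) (Sp_dv hs hS hf₁S)
  induction hW using Submodule.span_induction with
  | mem W hW =>
    obtain ⟨q', l, f, hq, hf, rfl⟩ := hW
    exact key l q' f hq hf
  | zero =>
    refine ⟨0, Submodule.zero_mem _, ?_⟩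
    have : Lo s (0 : ℕ → V n → ℂ) = 0 := by
      have h1 := Lo_smul hs 0 (W := (0 : ℕ → V n → ℂ)) fun N => contDiff_const
      simpa using h1
    rw [this]
    simp
  | add W₁ W₂ _ _ h₁ h₂ =>
    obtain ⟨Y₁, hY₁, h₁'⟩ := h₁
    obtain ⟨Y₂, hY₂, h₂'⟩ := h₂
    refine ⟨Y₁ + Y₂, Submodule.add_mem _ hY₁ hY₂, ?_⟩
    rw [Lo_add hs (hsm hY₁) (hsm hY₂), add_sub_add_comm]
    exact Submodule.add_mem _ h₁' h₂'
  | smul c W _ h₁ =>
    obtain ⟨Y, hY, h'⟩ := h₁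
    refine ⟨c • Y, Submodule.smul_mem _ _ hY, ?_⟩
    rw [Lo_smul hs c (hsm hY), ← smul_sub]
    exact Submodule.smul_mem _ _ h'

/-- The quasimodes. -/
theorem quasi {s : MF n} (hs : SmM s) (hsym : ∀ x, (s x).IsSymm) {S : Set (V n)} (hS : IsClosed S)
    {Θ r e g : V n → ℂ} (h : Ph s Θ r S e g) {χ : V n → ℂ} (hχ : Sp S χ) (K : ℕ) :
    ∃ W : ℕ → V n → ℂ, W - gen Θ r 0 0 χ ∈ Mo Θ r S 1 ∧ W ∈ Mo Θ r S 0 ∧
      Lo s W ∈ Mo Θ r S (K + 1) := by
  induction K with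
  | zero =>
    refine ⟨gen Θ r 0 0 χ, by simp, gen_mem le_rfl hχ, ?_⟩
    have e1 : gen Θ r 0 (0 - 1) (fun x => 2 * ((0 : ℕ) : ℂ) * B s Θ r x * χ x) = 0 := by
      funext N x
      simp [gen]
    have e2 : gen Θ r 0 (0 - 2) (fun x => ((0 : ℕ) : ℂ) * (0 - 1 : ℕ) * B s r r x * χ x) = 0 := by
      funext N x
      simp [gen]
    rw [Lo_gen hs hsym h 0 0 hχ, e1, e2]
    simp only [zero_add]
    refine Submodule.add_mem _ (Submodule.add_mem _ (Submodule.add_mem _ ?_ ?_) ?_) ?_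
    · exact gen_mem (by omega) (Sp_mul_left h.he hχ)
    · exact gen_mem (by omega) (Sp_add (Sp_mul_left (contDiff_dv hs h.hΘ) hχ)
        (Sp_mul_left contDiff_const (Sp_B hs hS h.hΘ hχ)))
    · exact gen_mem (by omega) (Sp_mul_left contDiff_const
        (Sp_add (Sp_mul_left (contDiff_dv hs h.hr) hχ)
        (Sp_mul_left contDiff_const (Sp_B hs hS h.hr hχ))))
    · exact gen_mem (by omega) (Sp_dv hs hS hχ)
  | succ K ih =>
    obtain ⟨W, hW1, hW0, hWL⟩ := ih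
    obtain ⟨Y, hY, hY'⟩ := solve hs hsym hS h (K + 1) hWL
    have hsm : ∀ {q : ℕ} {W : ℕ → V n → ℂ}, W ∈ Mo Θ r S q → ∀ N, ContDiff ℝ ∞ (W N) :=
      fun hW N => (Mo_Sp h.hΘ h.hr hW N).1
    refine ⟨W - Y, ?_, Submodule.sub_mem _ hW0 (Mo_mono (Nat.zero_le _) hY), ?_⟩
    · have : W - Y - gen Θ r 0 0 χ = (W - gen Θ r 0 0 χ) - Y := by abel
      rw [this]
      exact Submodule.sub_mem _ hW1 (Mo_mono (by omega) hY)
    · rw [Lo_sub hs (hsm hW0) (hsm hY)]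
      have : Lo s W - Lo s Y = -(Lo s Y - Lo s W) := by abel
      rw [this]
      exact Submodule.neg_mem _ hY'

end Vale.Agent.P088.R2.H381
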