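import Vale.Agent.P088.R2.H381.QBd

/-!
# P088, boundary quasimodes: the phase
-/

open MeasureTheory Set Filter Topology
open scoped ContDiff Matrix ComplexConjugate

noncomputable section

namespace Vale.Agent.P088.R2.H381

open Vale.Agent.P088.LR Vale.Agent.P088.LR.B Vale.Agent.P088.LR.H705

variable {n : ℕ}

/-! ### algebra of a positive definite matrix -/

/-- `A(b, c)`. -/
def qf (A : Matrix (Fin n) (Fin n) ℝ) (b c : V n) : ℝ := ∑ i, ∑ j, A i j * b i * c j

theorem symm_of {A : Matrix (Fin n) (Fin n) ℝ} (hA : A.PosDef) : A.IsSymm := by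
  have h := hA.isHermitian
  rwa [Matrix.IsHermitian, Matrix.conjTranspose_eq_transpose_of_trivial] at h

theorem qf_symm {A : Matrix (Fin n) (Fin n) ℝ} (hA : A.IsSymm) (b c : V n) : qf A b c = qf A c b := by
  unfold qf
  rw [Finset.sum_comm]
  refine Finset.sum_congr rfl fun j _ => Finset.sum_congr rfl fun i _ => ?_
  rw [hA.apply j i]
  ring

theorem qf_pos {A : Matrix (Fin n) (Fin n) ℝ} (hA : A.PosDef) {b : V n} (hb : b ≠ 0) :
    0 < qf A b b := by
  have h := (Matrix.posDef_iff_dotProduct_mulVec.1 hA).2 hb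
  have e : qf A b b = star b ⬝ᵥ A *ᵥ b := by
    simp only [qf, dotProduct, Matrix.mulVec, Pi.star_apply, star_trivial, Finset.mul_sum]
    exact Finset.sum_congr rfl fun i _ => Finset.sum_congr rfl fun j _ => by ring
  rw [e]
  exact h

theorem qf_nonneg {A : Matrix (Fin n) (Fin n) ℝ} (hA : A.PosDef) (b : V n) : 0 ≤ qf A b b := by
  by_cases hb : b = 0
  · subst hb; simp [qf]
  · exact (qf_pos hA hb).le

theorem qf_comb {A : Matrix (Fin n) (Fin n) ℝ} (hA : A.IsSymm) (a c : ℝ) (u v : V n) :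
    qf A (fun i => a * u i - c * v i) (fun i => a * u i - c * v i) =
      a ^ 2 * qf A u u - 2 * a * c * qf A u v + c ^ 2 * qf A v v := by
  have h1 : qf A (fun i => a * u i - c * v i) (fun i => a * u i - c * v i) =
      a ^ 2 * qf A u u - a * c * qf A u v - a * c * qf A v u + c ^ 2 * qf A v v := by
    unfold qf
    simp only [Finset.mul_sum, ← Finset.sum_sub_distrib, ← Finset.sum_add_distrib]
    exact Finset.sum_congr rfl fun i _ => Finset.sum_congr rfl fun j _ => by ring
  rw [h1, qf_symm hA v u]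
  ring

/-- The Gram determinant. -/
theorem gram_nonneg {A : Matrix (Fin n) (Fin n) ℝ} (hA : A.PosDef) (u v : V n) :
    0 ≤ qf A v v * qf A u u - qf A u v ^ 2 := by
  by_cases hv : v = 0
  · subst hv; simp [qf]
  · have h1 := qf_pos hA hv
    have h2 := qf_nonneg hA (fun i => qf A v v * u i - qf A u v * v i)
    rw [qf_comb (symm_of hA)] at h2
    have h3 : 0 ≤ qf A v v * (qf A v v * qf A u u - qf A u v ^ 2) := by linarith
    exact nonneg_of_mul_nonneg_right h3 h1

theorem gram_pos {A : Matrix (Fin n) (Fin n) ℝ} (hA : A.PosDef) {u v : V n} (hv : v ≠ 0)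
    (hu : ∑ i, u i ^ 2 = 1) (huv : ∑ i, u i * v i = 0) :
    0 < qf A v v * qf A u u - qf A u v ^ 2 := by
  have h1 := qf_pos hA hv
  have h0 : (fun i => qf A v v * u i - qf A u v * v i) ≠ 0 := by
    intro h
    have h3 : ∑ i, u i * (qf A v v * u i - qf A u v * v i) = 0 := by
      refine Finset.sum_eq_zero fun i _ => ?_
      have := congrFun h i
      simp only [Pi.zero_apply] at this
      rw [this, mul_zero]
    have h4 : ∑ i, u i * (qf A v v * u i - qf A u v * v i) =
        qf A v v * ∑ i, u i ^ 2 - qf A u v * ∑ i, u i * v i := by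
      rw [Finset.mul_sum, Finset.mul_sum, ← Finset.sum_sub_distrib]
      exact Finset.sum_congr rfl fun i _ => by ring
    rw [h4, hu, huv] at h3
    linarith
  have h2 := qf_pos hA h0
  rw [qf_comb (symm_of hA)] at h2
  have h3 : 0 < qf A v v * (qf A v v * qf A u u - qf A u v ^ 2) := by linarith
  exact (pos_iff_pos_of_mul_pos h3).1 h1

/-! ### additivity of `B` -/

theorem B_add_right (s : MF n) {u a b : V n → ℂ} (ha : ContDiff ℝ ∞ a) (hb : ContDiff ℝ ∞ b)
    (x : V n) : B s u (fun y => a y + b y) x = B s u a x + B s u b x := by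
  unfold B
  rw [← Finset.sum_add_distrib]
  refine Finset.sum_congr rfl fun i _ => ?_
  rw [← Finset.sum_add_distrib]
  refine Finset.sum_congr rfl fun j _ => ?_
  unfold pd
  rw [fderiv_fun_add (ha.differentiable (by simp) x) (hb.differentiable (by simp) x)]
  simp
  ring

theorem B_add_left (s : MF n) {u a b : V n → ℂ} (ha : ContDiff ℝ ∞ a) (hb : ContDiff ℝ ∞ b)
    (x : V n) : B s (fun y => a y + b y) u x = B s a u x + B s b u x := by
  unfold B
  rw [← Finset.sum_add_distrib]
  refine Finset.sum_congr rfl fun i _ => ?_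
  rw [← Finset.sum_add_distrib]
  refine Finset.sum_congr rfl fun j _ => ?_
  unfold pd
  rw [fderiv_fun_add (ha.differentiable (by simp) x) (hb.differentiable (by simp) x)]
  simp
  ring

/-! ### the linear phase -/

/-- `i τ·x`. -/
def lin (τ : V n) (x : V n) : ℂ := Complex.I * ((∑ i, τ i * x i : ℝ) : ℂ)

/-- `τ·x` as a linear map. -/
def lt (τ : V n) : V n →L[ℝ] ℝ := ∑ i, τ i • ContinuousLinearMap.proj i

theorem lt_apply (τ x : V n) : lt τ x = ∑ i, τ i * x i := by
  simp [lt]

theorem lin_hasFDerivAt (τ x : V n) :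
    HasFDerivAt (lin τ) (Complex.I • Complex.ofRealCLM.comp (lt τ)) x := by
  have h1 : HasFDerivAt (fun y => Complex.ofRealCLM.comp (lt τ) y) (Complex.ofRealCLM.comp (lt τ)) x :=
    (Complex.ofRealCLM.comp (lt τ)).hasFDerivAt
  have h2 := h1.const_mul Complex.I
  have e : lin τ = fun y => Complex.I * Complex.ofRealCLM.comp (lt τ) y := by
    funext y
    simp [lin, lt_apply]
  rw [e]
  exact h2

theorem lin_contDiff (τ : V n) : ContDiff ℝ ∞ (lin τ) := by
  have e : lin τ = fun y => Complex.I * Complex.ofRealCLM.comp (lt τ) y := by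
    funext y
    simp [lin, lt_apply]
  rw [e]
  exact contDiff_const.mul (Complex.ofRealCLM.comp (lt τ)).contDiff

theorem pd_lin (τ : V n) (i : Fin n) (x : V n) : pd i (lin τ) x = Complex.I * τ i := by
  unfold pd
  rw [(lin_hasFDerivAt τ x).fderiv]
  simp [lt_apply, Pi.single_apply]

theorem pd_cx {ρ : V n → ℝ} (hρ : ContDiff ℝ ∞ ρ) (i : Fin n) (x : V n) :
    pd i (cx ρ) x = ((pd i ρ x : ℝ) : ℂ) := by
  have h : HasFDerivAt (cx ρ) (Complex.ofRealCLM.comp (fderiv ℝ ρ x)) x :=
    Complex.ofRealCLM.hasFDerivAt.comp x ((hρ.differentiable (by simp)) x).hasFDerivAt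
  unfold pd
  rw [h.fderiv]
  rfl

theorem B_lin_lin (s : MF n) (τ : V n) (x : V n) : B s (lin τ) (lin τ) x = -((qf (s x) τ τ : ℝ) : ℂ) := by
  unfold B qf
  push_cast
  rw [← Finset.sum_neg_distrib]
  refine Finset.sum_congr rfl fun i _ => ?_
  rw [← Finset.sum_neg_distrib]
  refine Finset.sum_congr rfl fun j _ => ?_
  rw [pd_lin, pd_lin]
  linear_combination ((s x i j : ℂ) * τ i * τ j) * Complex.I_sq

theorem B_lin_cx (s : MF n) (τ : V n) {ρ : V n → ℝ} (hρ : ContDiff ℝ ∞ ρ) (x : V n) :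
    B s (lin τ) (cx ρ) x = Complex.I * ((qf (s x) τ (fun j => pd j ρ x) : ℝ) : ℂ) := by
  unfold B qf
  push_cast
  rw [Finset.mul_sum]
  refine Finset.sum_congr rfl fun i _ => ?_
  rw [Finset.mul_sum]
  refine Finset.sum_congr rfl fun j _ => ?_
  rw [pd_lin, pd_cx hρ]
  ring

theorem B_cx_cx (s : MF n) {ρ : V n → ℝ} (hρ : ContDiff ℝ ∞ ρ) (x : V n) :
    B s (cx ρ) (cx ρ) x = ((qf (s x) (fun j => pd j ρ x) (fun j => pd j ρ x) : ℝ) : ℂ) := by
  unfold B qf
  push_cast
  refine Finset.sum_congr rfl fun i _ => Finset.sum_congr rfl fun j _ => ?_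
  rw [pd_cx hρ, pd_cx hρ]

theorem pdr_contDiff {ρ : V n → ℝ} (hρ : ContDiff ℝ ∞ ρ) (i : Fin n) : ContDiff ℝ ∞ (pd i ρ) := by
  unfold pd
  exact (hρ.fderiv_right (m := ∞) (by simp)).clm_apply contDiff_const

theorem qf_contDiff {s : MF n} (hs : SmM s) {b c : V n → V n} (hb : ∀ i, ContDiff ℝ ∞ fun x => b x i)
    (hc : ∀ i, ContDiff ℝ ∞ fun x => c x i) : ContDiff ℝ ∞ fun x => qf (s x) (b x) (c x) := by
  unfold qf
  exact ContDiff.sum fun i _ => ContDiff.sum fun j _ => ((hs i j).mul (hb i)).mul (hc j)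

/-- The eikonal equation at a point. -/
theorem eik_pt {a d g w : ℂ} (ha : a ≠ 0) (hw : w ^ 2 = a * d - g ^ 2) :
    -d + 2 * (-(w + Complex.I * g) / a) * (Complex.I * g) + (-(w + Complex.I * g) / a) ^ 2 * a = 0 := by
  field_simp
  linear_combination hw - g ^ 2 * Complex.I_sq

end Vale.Agent.P088.R2.H381
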